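import Mathlib

open MeasureTheory Set

namespace Vale.Agent.Lib.P254

/-- A bounded-on-the-interval antitone weight times an interval integrable function is
interval integrable. -/
theorem cheb_mul_intervalIntegrable (M : ℝ) (hM : 0 ≤ M) (w H : ℝ → ℝ)
    (hw : AntitoneOn w (Icc 0 M)) (hH : IntervalIntegrable H volume 0 M) :
    IntervalIntegrable (fun y => w y * H y) volume 0 M := by
  have hwi : IntervalIntegrable w volume 0 M := by
    refine AntitoneOn.intervalIntegrable ?_
    rw [uIcc_of_le hM]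
    exact hw
  rw [intervalIntegrable_iff_integrableOn_Ioc_of_le hM] at hH hwi ⊢
  refine Integrable.bdd_mul (c := max |w 0| |w M|) hH hwi.aestronglyMeasurable ?_
  refine ae_restrict_of_forall_mem measurableSet_Ioc (fun x hx => ?_)
  have hx' : x ∈ Icc 0 M := Ioc_subset_Icc_self hx
  have h0 : (0:ℝ) ∈ Icc 0 M := ⟨le_rfl, hM⟩
  have hMm : M ∈ Icc 0 M := ⟨hM, le_rfl⟩
  have h1 : w x ≤ w 0 := hw h0 hx' hx'.1
  have h2 : w M ≤ w x := hw hx' hMm hx'.2
  rw [Real.norm_eq_abs]
  refine abs_le.mpr ⟨?_, ?_⟩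
  · have h3 : -|w M| ≤ w M := neg_abs_le _
    have h4 : |w M| ≤ max |w 0| |w M| := le_max_right _ _
    linarith
  · have h3 : w 0 ≤ |w 0| := le_abs_self _
    have h4 : |w 0| ≤ max |w 0| |w M| := le_max_left _ _
    linarith

theorem cheb_ratio (M : ℝ) (hM : 0 ≤ M) (w H φ : ℝ → ℝ) (hw : AntitoneOn w (Icc 0 M))
    (hH : IntervalIntegrable H volume 0 M) (hφ : IntervalIntegrable φ volume 0 M)
    (hratio : ∀ s ∈ Icc 0 M, ∀ t ∈ Icc 0 M, s ≤ t → H s * φ t ≤ H t * φ s) :
    (∫ y in (0:ℝ)..M, w y * H y) * (∫ y in (0:ℝ)..M, φ y)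
      ≤ (∫ y in (0:ℝ)..M, w y * φ y) * (∫ y in (0:ℝ)..M, H y) := by
  have hwH := cheb_mul_intervalIntegrable M hM w H hw hH
  have hwφ := cheb_mul_intervalIntegrable M hM w φ hw hφ
  have hpt : ∀ s ∈ Icc 0 M, ∀ t ∈ Icc 0 M,
      (w s * H s) * φ t - (w s * φ s) * H t - H s * (w t * φ t) + φ s * (w t * H t) ≤ 0 := by
    intro s hs t ht
    have hfac : (w s * H s) * φ t - (w s * φ s) * H t - H s * (w t * φ t) + φ s * (w t * H t)
        = (w s - w t) * (H s * φ t - H t * φ s) := by ring
    rw [hfac]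
    rcases le_total s t with hst | hst
    · have h1 : 0 ≤ w s - w t := sub_nonneg.mpr (hw hs ht hst)
      have h2 : H s * φ t - H t * φ s ≤ 0 := sub_nonpos.mpr (hratio s hs t ht hst)
      exact mul_nonpos_of_nonneg_of_nonpos h1 h2
    · have h1 : w s - w t ≤ 0 := sub_nonpos.mpr (hw ht hs hst)
      have h2 : 0 ≤ H s * φ t - H t * φ s := by
        have := hratio t ht s hs hst
        linarith
      exact mul_nonpos_of_nonpos_of_nonneg h1 h2
  have hF : ∀ s ∈ Icc 0 M,
      (w s * H s) * (∫ y in (0:ℝ)..M, φ y) - (w s * φ s) * (∫ y in (0:ℝ)..M, H y)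
        - H s * (∫ y in (0:ℝ)..M, w y * φ y) + φ s * (∫ y in (0:ℝ)..M, w y * H y) ≤ 0 := by
    intro s hs
    have i1 : IntervalIntegrable (fun t => (w s * H s) * φ t) volume 0 M := hφ.const_mul _
    have i2 : IntervalIntegrable (fun t => (w s * φ s) * H t) volume 0 M := hH.const_mul _
    have i3 : IntervalIntegrable (fun t => H s * (w t * φ t)) volume 0 M := hwφ.const_mul _
    have i4 : IntervalIntegrable (fun t => φ s * (w t * H t)) volume 0 M := hwH.const_mul _
    have hint : ∫ t in (0:ℝ)..M,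
        ((w s * H s) * φ t - (w s * φ s) * H t - H s * (w t * φ t) + φ s * (w t * H t))
        = (w s * H s) * (∫ y in (0:ℝ)..M, φ y) - (w s * φ s) * (∫ y in (0:ℝ)..M, H y)
          - H s * (∫ y in (0:ℝ)..M, w y * φ y) + φ s * (∫ y in (0:ℝ)..M, w y * H y) := by
      rw [intervalIntegral.integral_add ((i1.sub i2).sub i3) i4,
        intervalIntegral.integral_sub (i1.sub i2) i3, intervalIntegral.integral_sub i1 i2,
        intervalIntegral.integral_const_mul, intervalIntegral.integral_const_mul,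
        intervalIntegral.integral_const_mul, intervalIntegral.integral_const_mul]
    rw [← hint]
    have hle := intervalIntegral.integral_mono_on (μ := volume) hM
      (((i1.sub i2).sub i3).add i4) (intervalIntegrable_const (c := (0:ℝ)))
      (fun t ht => hpt s hs t ht)
    rw [intervalIntegral.integral_const, smul_zero] at hle
    exact hle
  have j1 : IntervalIntegrable (fun s => (w s * H s) * (∫ y in (0:ℝ)..M, φ y)) volume 0 M :=
    hwH.mul_const _
  have j2 : IntervalIntegrable (fun s => (w s * φ s) * (∫ y in (0:ℝ)..M, H y)) volume 0 M :=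
    hwφ.mul_const _
  have j3 : IntervalIntegrable (fun s => H s * (∫ y in (0:ℝ)..M, w y * φ y)) volume 0 M :=
    hH.mul_const _
  have j4 : IntervalIntegrable (fun s => φ s * (∫ y in (0:ℝ)..M, w y * H y)) volume 0 M :=
    hφ.mul_const _
  have hint2 : ∫ s in (0:ℝ)..M,
      ((w s * H s) * (∫ y in (0:ℝ)..M, φ y) - (w s * φ s) * (∫ y in (0:ℝ)..M, H y)
        - H s * (∫ y in (0:ℝ)..M, w y * φ y) + φ s * (∫ y in (0:ℝ)..M, w y * H y))
      = (∫ y in (0:ℝ)..M, w y * H y) * (∫ y in (0:ℝ)..M, φ y)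
        - (∫ y in (0:ℝ)..M, w y * φ y) * (∫ y in (0:ℝ)..M, H y)
        - (∫ y in (0:ℝ)..M, H y) * (∫ y in (0:ℝ)..M, w y * φ y)
        + (∫ y in (0:ℝ)..M, φ y) * (∫ y in (0:ℝ)..M, w y * H y) := by
    rw [intervalIntegral.integral_add ((j1.sub j2).sub j3) j4,
      intervalIntegral.integral_sub (j1.sub j2) j3, intervalIntegral.integral_sub j1 j2,
      intervalIntegral.integral_mul_const, intervalIntegral.integral_mul_const,
      intervalIntegral.integral_mul_const, intervalIntegral.integral_mul_const]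
  have hle2 := intervalIntegral.integral_mono_on (μ := volume) hM
    (((j1.sub j2).sub j3).add j4) (intervalIntegrable_const (c := (0:ℝ)))
    (fun s hs => hF s hs)
  rw [intervalIntegral.integral_const, smul_zero] at hle2
  have hfin := hint2 ▸ hle2
  linarith

end Vale.Agent.Lib.P254
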