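import Vale.Agent.Lib.P254.PWJ.OneDim
import Vale.Agent.Lib.P254.Sym.FibreLC

/-!
# P254, route (h76-6): one-dimensional corners and the chordwise Chebyshev bound
-/

open MeasureTheory Set

namespace Vale.Agent.Lib.P254

/-- A one-dimensional corner is an interval `[0, c]`: its first moment is `c^2 / 2`. -/
theorem corner_one_integral {S : Set (Fin 1 → ℝ)} (hS : Corner S) :
    ∫ u in S, u 0 = (vol S) ^ 2 / 2 := by
  obtain ⟨hc, -, hnn, hdown⟩ := hS
  rcases S.eq_empty_or_nonempty with hemp | hne
  · rw [hemp]
    simp [vol]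
  -- the point of `S` with the largest coordinate
  obtain ⟨y₀, hy₀, hmax⟩ := hc.exists_isMaxOn hne (continuous_apply (0 : Fin 1)).continuousOn
  have hc0 : 0 ≤ y₀ 0 := hnn y₀ hy₀ 0
  -- transfer to the real line
  have hmp : MeasurePreserving (MeasurableEquiv.funUnique (Fin 1) ℝ).symm volume volume :=
    MeasurePreserving.symm _ (volume_preserving_funUnique (Fin 1) ℝ)
  have hsymm : ∀ x : ℝ, (MeasurableEquiv.funUnique (Fin 1) ℝ).symm x = fun _ => x := by
    intro x
    funext i
    rfl
  have hAIcc : (MeasurableEquiv.funUnique (Fin 1) ℝ).symm ⁻¹' S = Icc 0 (y₀ 0) := by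
    ext x
    rw [mem_preimage, hsymm]
    constructor
    · intro hx
      exact ⟨hnn _ hx 0, hmax hx⟩
    · intro hx
      refine hdown y₀ hy₀ _ (fun _ => hx.1) (fun i => ?_)
      rw [Subsingleton.elim i 0]
      exact hx.2
  have hvolA : volume S = volume ((MeasurableEquiv.funUnique (Fin 1) ℝ).symm ⁻¹' S) :=
    (hmp.measure_preimage_equiv S).symm
  have hintA : ∫ u in S, u 0
      = ∫ x in (MeasurableEquiv.funUnique (Fin 1) ℝ).symm ⁻¹' S, x := by
    have h := hmp.setIntegral_preimage_emb
      (MeasurableEquiv.funUnique (Fin 1) ℝ).symm.measurableEmbedding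
      (fun y : Fin 1 → ℝ => y 0) S
    exact h.symm
  have hvol : vol S = y₀ 0 := by
    unfold vol
    rw [hvolA, hAIcc, Real.volume_Icc, ENNReal.toReal_ofReal (by linarith)]
    ring
  rw [hintA, hAIcc, hvol, integral_Icc_eq_integral_Ioc,
    ← intervalIntegral.integral_of_le hc0, integral_id]
  ring

/-- In a planar corner `T` the centroid of the second coordinate is at most half the length of
the chord at height `0` of the first coordinate. -/
theorem corner_two_moment_le {T : Set (Fin 2 → ℝ)} (hT : Corner T) :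
    ∫ w in T, w 1 ≤ vol (sec T 0) / 2 * vol T := by
  have hc : IsCompact T := hT.1
  rw [integral_slice hc (fun w => w 1) (continuous_apply 1)]
  have h1 : ∀ t : ℝ, ∫ y in sec T t, (Fin.cons t y : Fin 2 → ℝ) 1
      = (vol (sec T t)) ^ 2 / 2 := by
    intro t
    exact corner_one_integral (corner_sec hT t)
  have h2 : (fun t : ℝ => ∫ y in sec T t, (Fin.cons t y : Fin 2 → ℝ) 1)
      = fun t : ℝ => (vol (sec T t)) ^ 2 / 2 := funext h1
  rw [h2]
  have hvs := vol_slice hc
  have hint := integrable_vol_sec hc
  have hnn : ∀ t, 0 ≤ vol (sec T t) := fun t => ENNReal.toReal_nonneg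
  have hle : ∀ t, vol (sec T t) ≤ vol (sec T 0) := by
    intro t
    rcases lt_or_ge t 0 with ht | ht
    · rw [corner_sec_neg hT ht]
      have h0 : vol (∅ : Set (Fin 1 → ℝ)) = 0 := by simp [vol]
      rw [h0]
      exact hnn 0
    · exact ENNReal.toReal_mono (isCompact_sec hc 0).measure_lt_top.ne
        (measure_mono (corner_sec_anti hT le_rfl ht))
  calc ∫ t, (vol (sec T t)) ^ 2 / 2 ≤ ∫ t, vol (sec T 0) / 2 * vol (sec T t) := by
        apply integral_mono_of_nonneg
        · exact Filter.Eventually.of_forall (fun t => div_nonneg (sq_nonneg _) (by norm_num))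
        · exact hint.const_mul _
        · exact Filter.Eventually.of_forall (fun t => by
            show (vol (sec T t)) ^ 2 / 2 ≤ vol (sec T 0) / 2 * vol (sec T t)
            nlinarith [hnn t, hle t])
    _ = vol (sec T 0) / 2 * vol T := by
        rw [integral_const_mul, ← hvs]

end Vale.Agent.Lib.P254
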