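import Vale.Agent.Lib.P254.PWJ.OneDim

/-!
# P254, route (h76-6): the chord function of a planar corner is concave
-/

open MeasureTheory Set

namespace Vale.Agent.Lib.P254

/-- The subset of the line corresponding to a subset of `Fin 1 → ℝ`. -/
private def facetLine (S : Set (Fin 1 → ℝ)) : Set ℝ := {x | (fun _ => x) ∈ S}

private lemma facet_volume_eq (S : Set (Fin 1 → ℝ)) : volume S = volume (facetLine S) := by
  have h : facetLine S = (MeasurableEquiv.funUnique (Fin 1) ℝ).symm ⁻¹' S := by
    ext x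
    rfl
  rw [h]
  exact ((MeasurePreserving.symm _
    (volume_preserving_funUnique (Fin 1) ℝ)).measure_preimage_equiv S).symm

private lemma facet_line_eq_image (S : Set (Fin 1 → ℝ)) :
    facetLine S = (fun u : Fin 1 → ℝ => u 0) '' S := by
  ext x
  constructor
  · intro hx
    exact ⟨fun _ => x, hx, rfl⟩
  · rintro ⟨u, hu, rfl⟩
    have hconst : (fun _ : Fin 1 => u 0) = u := by
      funext i
      rw [Subsingleton.elim i 0]
    show (fun _ : Fin 1 => u 0) ∈ S
    rw [hconst]
    exact hu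

/-- For a height `y` between `0` and `M` the chord of the corner is a segment `[0, c]`, whose
right end lies in the corner and whose length is `c`. -/
private lemma facet_chord {F : Set (Fin 2 → ℝ)} (hF : Corner F) {M y : ℝ}
    (hMmem : (![M, 0] : Fin 2 → ℝ) ∈ F) (hy : y ∈ Icc 0 M) :
    ∃ c : ℝ, (Fin.cons y (fun _ => c) : Fin 2 → ℝ) ∈ F ∧
      (∀ x : ℝ, (Fin.cons y (fun _ => x) : Fin 2 → ℝ) ∈ F → x ≤ c) ∧ vol (sec F y) = c := by
  obtain ⟨hcomp, hconv, horth, hdown⟩ := hF
  have hmemL : ∀ x : ℝ, x ∈ facetLine (sec F y) ↔ (Fin.cons y (fun _ => x) : Fin 2 → ℝ) ∈ F :=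
    fun x => Iff.rfl
  have h0 : (0 : ℝ) ∈ facetLine (sec F y) := by
    rw [hmemL]
    refine hdown _ hMmem _ ?_ ?_
    · intro i
      refine Fin.cases ?_ ?_ i
      · rw [Fin.cons_zero]
        exact hy.1
      · intro j
        rw [Fin.cons_succ]
    · intro i
      refine Fin.cases ?_ ?_ i
      · rw [Fin.cons_zero]
        simpa using hy.2
      · intro j
        rw [Fin.cons_succ, Subsingleton.elim j 0]
        simp
  have hLc : IsCompact (facetLine (sec F y)) := by
    rw [facet_line_eq_image]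
    exact (isCompact_sec hcomp y).image (continuous_apply 0)
  have hcmem : sSup (facetLine (sec F y)) ∈ facetLine (sec F y) := hLc.sSup_mem ⟨0, h0⟩
  have hle : ∀ x ∈ facetLine (sec F y), x ≤ sSup (facetLine (sec F y)) :=
    fun x hx => le_csSup hLc.bddAbove hx
  have hc0 : 0 ≤ sSup (facetLine (sec F y)) := hle 0 h0
  have hIcc : facetLine (sec F y) = Icc 0 (sSup (facetLine (sec F y))) := by
    refine Subset.antisymm (fun x hx => ⟨?_, hle x hx⟩) ?_
    · have h := horth _ ((hmemL x).1 hx) (Fin.succ 0)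
      rw [Fin.cons_succ] at h
      exact h
    · intro x hx
      rw [hmemL]
      refine hdown _ ((hmemL _).1 hcmem) _ ?_ ?_
      · intro i
        refine Fin.cases ?_ ?_ i
        · rw [Fin.cons_zero]
          exact hy.1
        · intro j
          rw [Fin.cons_succ]
          exact hx.1
      · intro i
        refine Fin.cases ?_ ?_ i
        · rw [Fin.cons_zero, Fin.cons_zero]
        · intro j
          rw [Fin.cons_succ, Fin.cons_succ]
          exact hx.2
  refine ⟨sSup (facetLine (sec F y)), (hmemL _).1 hcmem, fun x hx => hle x ((hmemL x).2 hx), ?_⟩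
  have hvol : volume (facetLine (sec F y)) = ENNReal.ofReal (sSup (facetLine (sec F y))) := by
    conv_lhs => rw [hIcc]
    rw [Real.volume_Icc, sub_zero]
  unfold vol
  rw [facet_volume_eq, hvol, ENNReal.toReal_ofReal hc0]

theorem chord_concave {F : Set (Fin 2 → ℝ)} (hF : Corner F) {M : ℝ}
    (hMmem : (![M, 0] : Fin 2 → ℝ) ∈ F) :
    ConcaveOn ℝ (Icc 0 M) (fun y => vol (sec F y)) := by
  refine ⟨convex_Icc 0 M, ?_⟩
  intro y1 hy1 y2 hy2 a b ha hb hab
  have hy : a • y1 + b • y2 ∈ Icc 0 M := convex_Icc 0 M hy1 hy2 ha hb hab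
  obtain ⟨c1, hc1, -, hv1⟩ := facet_chord hF hMmem hy1
  obtain ⟨c2, hc2, -, hv2⟩ := facet_chord hF hMmem hy2
  obtain ⟨c, -, hcle, hv⟩ := facet_chord hF hMmem hy
  show a • vol (sec F y1) + b • vol (sec F y2) ≤ vol (sec F (a • y1 + b • y2))
  rw [hv1, hv2, hv]
  apply hcle
  have h := hF.2.1 hc1 hc2 ha hb hab
  have heq : (Fin.cons (a • y1 + b • y2) (fun _ => a • c1 + b • c2) : Fin 2 → ℝ)
      = a • (Fin.cons y1 (fun _ => c1) : Fin 2 → ℝ)
        + b • (Fin.cons y2 (fun _ => c2) : Fin 2 → ℝ) := by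
    funext i
    refine Fin.cases ?_ ?_ i
    · simp only [Fin.cons_zero, Pi.add_apply, Pi.smul_apply]
    · intro j
      simp only [Fin.cons_succ, Pi.add_apply, Pi.smul_apply]
  rw [heq]
  exact h

end Vale.Agent.Lib.P254
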