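import Vale.Agent.Lib.P254.Sym.OneDa

open MeasureTheory Set

namespace Vale.Agent.Lib.P254

/-- The even extension by zero of a function on `[0, T]`. -/
noncomputable def j1_ext (T : ℝ) (v : ℝ → ℝ) (t : ℝ) : ℝ := if |t| ≤ T then v |t| else 0

theorem j1_ext_of_mem {T : ℝ} (v : ℝ → ℝ) {t : ℝ} (ht : t ∈ Icc 0 T) :
    j1_ext T v t = v t := by
  unfold j1_ext
  rw [abs_of_nonneg ht.1, if_pos ht.2]

theorem j1_ext_of_gt {T : ℝ} (v : ℝ → ℝ) {t : ℝ} (ht : T < |t|) : j1_ext T v t = 0 := by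
  unfold j1_ext
  rw [if_neg (not_le.mpr ht)]

theorem j1_ext_nonneg {T : ℝ} {v : ℝ → ℝ} (hv0 : ∀ t ∈ Icc 0 T, 0 ≤ v t) (t : ℝ) :
    0 ≤ j1_ext T v t := by
  unfold j1_ext
  split_ifs with h
  · exact hv0 _ ⟨abs_nonneg t, h⟩
  · exact le_refl 0

theorem j1_ext_even (T : ℝ) (v : ℝ → ℝ) (t : ℝ) : j1_ext T v (-t) = j1_ext T v t := by
  unfold j1_ext
  rw [abs_neg]

theorem j1_ext_meas {T : ℝ} (hT : 0 ≤ T) {v : ℝ → ℝ} (hanti : AntitoneOn v (Icc 0 T)) :
    Measurable (j1_ext T v) := by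
  have hc : Antitone (fun s : ℝ => v (max 0 (min s T))) := by
    intro a b hab
    exact hanti ⟨le_max_left _ _, max_le hT (min_le_right _ _)⟩
      ⟨le_max_left _ _, max_le hT (min_le_right _ _)⟩
      (max_le_max (le_refl 0) (min_le_min hab (le_refl T)))
  have hcm : Measurable (fun s : ℝ => v (max 0 (min s T))) := hc.measurable
  have habs : Measurable (fun t : ℝ => |t|) := continuous_abs.measurable
  have heq : j1_ext T v
      = fun t => if |t| ≤ T then (fun s : ℝ => v (max 0 (min s T))) |t| else 0 := by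
    funext t
    unfold j1_ext
    by_cases h : |t| ≤ T
    · rw [if_pos h, if_pos h]
      show v |t| = v (max 0 (min |t| T))
      rw [min_eq_left h, max_eq_right (abs_nonneg t)]
    · rw [if_neg h, if_neg h]
  rw [heq]
  exact Measurable.ite (measurableSet_le habs measurable_const) (hcm.comp habs)
    measurable_const

theorem j1_adm (T : ℝ) (hT : 0 ≤ T) (v : ℝ → ℝ) (hv0 : ∀ t ∈ Icc 0 T, 0 ≤ v t)
    (hanti : AntitoneOn v (Icc 0 T))
    (hlogc : ∀ x y r, 0 ≤ x → x ≤ y → 0 ≤ r → y + r ≤ T → v x * v (y + r) ≤ v (x + r) * v y) :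
    Adm (j1_ext T v) where
  meas := j1_ext_meas hT hanti
  nonneg := j1_ext_nonneg hv0
  even := j1_ext_even T v
  anti := by
    intro s t hs hst
    by_cases ht : t ≤ T
    · rw [j1_ext_of_mem v ⟨hs.trans hst, ht⟩, j1_ext_of_mem v ⟨hs, hst.trans ht⟩]
      exact hanti ⟨hs, hst.trans ht⟩ ⟨hs.trans hst, ht⟩ hst
    · have h1 : T < |t| := by
        rw [abs_of_nonneg (hs.trans hst)]
        exact not_le.mp ht
      rw [j1_ext_of_gt v h1]
      exact j1_ext_nonneg hv0 s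
  supp := ⟨T, fun t ht => j1_ext_of_gt v ht⟩
  logc := by
    intro x y r hx hxy hr
    have hy : 0 ≤ y := hx.trans hxy
    by_cases h : y + r ≤ T
    · rw [j1_ext_of_mem v ⟨hx, by linarith⟩, j1_ext_of_mem v ⟨by linarith, h⟩,
        j1_ext_of_mem v ⟨by linarith, by linarith⟩, j1_ext_of_mem v ⟨hy, by linarith⟩]
      exact hlogc x y r hx hxy hr h
    · have h1 : T < |y + r| := by
        rw [abs_of_nonneg (by linarith)]
        exact not_le.mp h
      rw [j1_ext_of_gt v h1, mul_zero]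
      exact mul_nonneg (j1_ext_nonneg hv0 _) (j1_ext_nonneg hv0 _)

theorem j1_even_integral (f : ℝ → ℝ) (a : ℝ) (ha : 0 ≤ a) (heven : ∀ t, f (-t) = f t)
    (hsupp : ∀ t, a < |t| → f t = 0) :
    ∫ t, f t = 2 * ∫ t in (0:ℝ)..a, f t := by
  have hfun : (fun t => f |t|) = f := by
    funext t
    rcases abs_cases t with ⟨h, _⟩ | ⟨h, _⟩
    · rw [h]
    · rw [h, heven]
  have h2 := integral_comp_abs (f := f)
  rw [hfun] at h2
  have h3 : ∫ t in Ioi 0, f t = ∫ t in Ioc 0 a, f t := by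
    refine setIntegral_eq_of_subset_of_forall_sdiff_eq_zero measurableSet_Ioi
      Ioc_subset_Ioi_self ?_
    intro x hx
    apply hsupp
    have hx0 : 0 < x := hx.1
    have hxa : ¬ (x ∈ Ioc 0 a) := hx.2
    rw [abs_of_pos hx0]
    by_contra h
    push Not at h
    exact hxa ⟨hx0, h⟩
  rw [h2, intervalIntegral.integral_of_le ha, h3]

theorem j1_transfer {T : ℝ} (hT : 0 ≤ T) (f g : ℝ → ℝ) (heven : ∀ t, f (-t) = f t)
    (hsupp : ∀ t, T < |t| → f t = 0) (hfg : ∀ t ∈ Icc 0 T, f t = g t) :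
    ∫ t, f t = 2 * ∫ t in (0:ℝ)..T, g t := by
  rw [j1_even_integral f T hT heven hsupp]
  have h : ∫ t in (0:ℝ)..T, f t = ∫ t in (0:ℝ)..T, g t :=
    intervalIntegral.integral_congr (fun t ht => by
      rw [uIcc_of_le hT] at ht
      exact hfg t ht)
  rw [h]

theorem j1_interval (T : ℝ) (hT : 0 ≤ T) (v : ℝ → ℝ) (hv0 : ∀ t ∈ Icc 0 T, 0 ≤ v t)
    (hanti : AntitoneOn v (Icc 0 T))
    (hlogc : ∀ x y r, 0 ≤ x → x ≤ y → 0 ≤ r → y + r ≤ T → v x * v (y + r) ≤ v (x + r) * v y) :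
    2 * (∫ t in (0:ℝ)..T, t * v t) * (∫ t in (0:ℝ)..T, v t ^ 2)
      ≤ (∫ t in (0:ℝ)..T, v t) ^ 3 := by
  have hV := j1_adm T hT v hv0 hanti hlogc
  have hmain := adm_first_moment hV
  have eA : ∫ t, j1_ext T v t = 2 * ∫ t in (0:ℝ)..T, v t :=
    j1_transfer hT (j1_ext T v) v (j1_ext_even T v) (fun t ht => j1_ext_of_gt v ht)
      (fun t ht => j1_ext_of_mem v ht)
  have eQ : ∫ t, j1_ext T v t ^ 2 = 2 * ∫ t in (0:ℝ)..T, v t ^ 2 :=
    j1_transfer hT (fun t => j1_ext T v t ^ 2) (fun t => v t ^ 2)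
      (fun t => by
        show j1_ext T v (-t) ^ 2 = j1_ext T v t ^ 2
        rw [j1_ext_even])
      (fun t ht => by
        show j1_ext T v t ^ 2 = 0
        rw [j1_ext_of_gt v ht]
        norm_num)
      (fun t ht => by
        show j1_ext T v t ^ 2 = v t ^ 2
        rw [j1_ext_of_mem v ht])
  have eB : ∫ t, |t| * j1_ext T v t = 2 * ∫ t in (0:ℝ)..T, t * v t :=
    j1_transfer hT (fun t => |t| * j1_ext T v t) (fun t => t * v t)
      (fun t => by
        show |(-t)| * j1_ext T v (-t) = |t| * j1_ext T v t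
        rw [abs_neg, j1_ext_even])
      (fun t ht => by
        show |t| * j1_ext T v t = 0
        rw [j1_ext_of_gt v ht, mul_zero])
      (fun t ht => by
        show |t| * j1_ext T v t = t * v t
        rw [j1_ext_of_mem v ht, abs_of_nonneg ht.1])
  rw [eA, eQ, eB] at hmain
  nlinarith [hmain]

end Vale.Agent.Lib.P254
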