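import Mathlib

/-!
# P254, the quadratic one-dimensional inequality on generators

For the generators `g_c(y) = min(1, (1-y)/(1-c))` of the cone of nonnegative concave nonincreasing
functions on `[0,1]`, with `a = 1 - c ≥ b = 1 - d`, the polar form of
`Q(l) = 2 I0² + 3 C I0 - 12 C I1 - J0` is nonnegative.  The proof is an exact Bernstein form.
-/

namespace Vale.Agent.Lib.P254

/-- The numerator polynomial: `12 a B(g_c, g_d)` for `a = 1 - c ≥ b = 1 - d`. -/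
theorem gen_bilin_poly (a b : ℝ) (hb : 0 ≤ b) (hba : b ≤ a) (ha : a ≤ 1) :
    0 ≤ 2 * b ^ 2 - 3 * a * b + 3 * a ^ 2 - 4 * a * b ^ 2 + 6 * a ^ 2 * b - 4 * a ^ 3
      + 3 / 2 * a * b ^ 3 + 3 / 2 * a ^ 4 - 9 / 4 * a ^ 2 * b ^ 3 - 9 / 4 * a ^ 4 * b
      + a ^ 3 * b ^ 3 + a ^ 4 * b ^ 2 := by
  have ha0 : 0 ≤ a := hb.trans hba
  have h1 : 0 ≤ 1 - a := by linarith
  have hd : 0 ≤ a - b := by linarith
  rcases ha0.eq_or_lt with h | hpos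
  · have hb0 : b = 0 := by linarith
    subst hb0
    rw [← h]
    norm_num
  · have key : a * (2 * b ^ 2 - 3 * a * b + 3 * a ^ 2 - 4 * a * b ^ 2 + 6 * a ^ 2 * b - 4 * a ^ 3
        + 3 / 2 * a * b ^ 3 + 3 / 2 * a ^ 4 - 9 / 4 * a ^ 2 * b ^ 3 - 9 / 4 * a ^ 4 * b
        + a ^ 3 * b ^ 3 + a ^ 4 * b ^ 2)
        = 3 * (1 - a) ^ 4 * (a - b) ^ 3 + 6 * (1 - a) ^ 4 * b * (a - b) ^ 2
          + 5 * (1 - a) ^ 4 * b ^ 2 * (a - b) + 2 * (1 - a) ^ 4 * b ^ 3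
          + 8 * a * (1 - a) ^ 3 * (a - b) ^ 3 + 18 * a * (1 - a) ^ 3 * b * (a - b) ^ 2
          + 16 * a * (1 - a) ^ 3 * b ^ 2 * (a - b) + 6 * a * (1 - a) ^ 3 * b ^ 3
          + 15 / 2 * a ^ 2 * (1 - a) ^ 2 * (a - b) ^ 3 + 45 / 2 * a ^ 2 * (1 - a) ^ 2 * b * (a - b) ^ 2
          + 45 / 2 * a ^ 2 * (1 - a) ^ 2 * b ^ 2 * (a - b) + 9 * a ^ 2 * (1 - a) ^ 2 * b ^ 3
          + 3 * a ^ 3 * (1 - a) * (a - b) ^ 3 + 51 / 4 * a ^ 3 * (1 - a) * b * (a - b) ^ 2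
          + 25 / 2 * a ^ 3 * (1 - a) * b ^ 2 * (a - b) + 7 / 2 * a ^ 3 * (1 - a) * b ^ 3
          + 1 / 2 * a ^ 4 * (a - b) ^ 3 + 9 / 4 * a ^ 4 * b * (a - b) ^ 2
          + 2 * a ^ 4 * b ^ 2 * (a - b) + 1 / 2 * a ^ 4 * b ^ 3 := by
      ring
    have hnn : 0 ≤ a * (2 * b ^ 2 - 3 * a * b + 3 * a ^ 2 - 4 * a * b ^ 2 + 6 * a ^ 2 * b - 4 * a ^ 3
        + 3 / 2 * a * b ^ 3 + 3 / 2 * a ^ 4 - 9 / 4 * a ^ 2 * b ^ 3 - 9 / 4 * a ^ 4 * b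
        + a ^ 3 * b ^ 3 + a ^ 4 * b ^ 2) := by
      rw [key]
      positivity
    exact nonneg_of_mul_nonneg_right hnn hpos

/-- Nonnegativity of the polar form on two generators, written with the closed forms
`I0 = 1 - a/2`, `I1 = (3 - 3a + a²)/6`, `C = 1/3 - a³/12`, `∫ g_c g_d = 1 - a/2 - b²/(6a)`. -/
theorem gen_bilin (a b : ℝ) (hb : 0 ≤ b) (hba : b ≤ a) (ha0 : 0 < a) (ha : a ≤ 1) :
    0 ≤ 2 * (1 - a / 2) * (1 - b / 2)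
      + 3 / 2 * ((1 / 3 - a ^ 3 / 12) * (1 - b / 2) + (1 / 3 - b ^ 3 / 12) * (1 - a / 2))
      - 6 * ((1 / 3 - a ^ 3 / 12) * ((3 - 3 * b + b ^ 2) / 6)
          + (1 / 3 - b ^ 3 / 12) * ((3 - 3 * a + a ^ 2) / 6))
      - (1 - a / 2 - b ^ 2 / (6 * a)) := by
  have hp := gen_bilin_poly a b hb hba ha
  have heq : 2 * (1 - a / 2) * (1 - b / 2)
      + 3 / 2 * ((1 / 3 - a ^ 3 / 12) * (1 - b / 2) + (1 / 3 - b ^ 3 / 12) * (1 - a / 2))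
      - 6 * ((1 / 3 - a ^ 3 / 12) * ((3 - 3 * b + b ^ 2) / 6)
          + (1 / 3 - b ^ 3 / 12) * ((3 - 3 * a + a ^ 2) / 6))
      - (1 - a / 2 - b ^ 2 / (6 * a))
      = (2 * b ^ 2 - 3 * a * b + 3 * a ^ 2 - 4 * a * b ^ 2 + 6 * a ^ 2 * b - 4 * a ^ 3
      + 3 / 2 * a * b ^ 3 + 3 / 2 * a ^ 4 - 9 / 4 * a ^ 2 * b ^ 3 - 9 / 4 * a ^ 4 * b
      + a ^ 3 * b ^ 3 + a ^ 4 * b ^ 2) / (12 * a) := by
    field_simp
    ring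
  rw [heq]
  positivity

end Vale.Agent.Lib.P254
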