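import Mathlib
import Vale.Agent.Lib.P254.PWJ.GenBilin

/-!
# P254, the explicit integrals of the ramps and the polar form on ramps

The ramp `ramp a y = min a (1 - y)` (for `a = 1 - c` this is `(1 - c)` times the generator
`g_c(y) = min(1, (1-y)/(1-c))` of the cone of nonnegative concave nonincreasing functions on
`[0,1]`).  We compute, over `[0,1]`, the integrals of `ramp a`, `y * ramp a`, `(1-y)^2 * ramp a`
and `ramp a * ramp b`, and deduce that the polar form `polarB` of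
`Q(l) = 2 I0^2 + 3 C I0 - 12 C I1 - J0` is nonnegative on pairs of ramps and on a ramp and the
constant `1`, and vanishes on the pair of constants.
-/

namespace Vale.Agent.Lib.P254.H75

open MeasureTheory intervalIntegral

/-- The ramp `min a (1 - y)`. -/
noncomputable def ramp (a y : ℝ) : ℝ := min a (1 - y)

theorem ramp_continuous (a : ℝ) : Continuous (ramp a) := by
  unfold ramp
  fun_prop

theorem ramp_of_le {a y : ℝ} (h : y ≤ 1 - a) : ramp a y = a := by
  unfold ramp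
  exact min_eq_left (by linarith)

theorem ramp_of_ge {a y : ℝ} (h : 1 - a ≤ y) : ramp a y = 1 - y := by
  unfold ramp
  exact min_eq_right (by linarith)

theorem ramp_nonneg {a y : ℝ} (ha : 0 ≤ a) (hy : y ≤ 1) : 0 ≤ ramp a y := by
  unfold ramp
  exact le_min ha (by linarith)

/-- Integral of a cubic polynomial over an interval. -/
theorem integral_cubic (u v c0 c1 c2 c3 : ℝ) :
    ∫ y in u..v, (c0 + c1 * y + c2 * y ^ 2 + c3 * y ^ 3) =
      c0 * (v - u) + c1 * (v ^ 2 - u ^ 2) / 2 + c2 * (v ^ 3 - u ^ 3) / 3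
        + c3 * (v ^ 4 - u ^ 4) / 4 := by
  have e : ∀ f : ℝ → ℝ, Continuous f → IntervalIntegrable f volume u v :=
    fun f hf => hf.intervalIntegrable _ _
  rw [integral_add (e _ (by fun_prop)) (e _ (by fun_prop)),
    integral_add (e _ (by fun_prop)) (e _ (by fun_prop)),
    integral_add (e _ (by fun_prop)) (e _ (by fun_prop))]
  have h1 : ∫ y in u..v, c1 * y = c1 * ((v ^ 2 - u ^ 2) / 2) := by
    rw [intervalIntegral.integral_const_mul, integral_id]
  rw [h1]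
  simp only [intervalIntegral.integral_const_mul, integral_pow,
    intervalIntegral.integral_const, smul_eq_mul]
  norm_num
  ring

/-- `∫₀¹ ramp a = a - a²/2`. -/
theorem integral_ramp {a : ℝ} (ha0 : 0 ≤ a) (ha1 : a ≤ 1) :
    ∫ y in (0:ℝ)..1, ramp a y = a - a ^ 2 / 2 := by
  have hc : Continuous (ramp a) := ramp_continuous a
  rw [← integral_add_adjacent_intervals (hc.intervalIntegrable 0 (1 - a))
    (hc.intervalIntegrable (1 - a) 1)]
  have h1 : ∫ y in (0:ℝ)..(1 - a), ramp a y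
      = ∫ y in (0:ℝ)..(1 - a), (a + 0 * y + 0 * y ^ 2 + 0 * y ^ 3) := by
    apply integral_congr
    intro y hy
    rw [Set.uIcc_of_le (by linarith)] at hy
    simp only [ramp_of_le hy.2]
    ring
  have h2 : ∫ y in (1 - a)..1, ramp a y
      = ∫ y in (1 - a)..1, (1 + (-1) * y + 0 * y ^ 2 + 0 * y ^ 3) := by
    apply integral_congr
    intro y hy
    rw [Set.uIcc_of_le (by linarith)] at hy
    simp only [ramp_of_ge hy.1]
    ring
  rw [h1, h2, integral_cubic, integral_cubic]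
  ring

/-- `∫₀¹ y * ramp a = a (3 - 3a + a²)/6`. -/
theorem integral_id_mul_ramp {a : ℝ} (ha0 : 0 ≤ a) (ha1 : a ≤ 1) :
    ∫ y in (0:ℝ)..1, y * ramp a y = a * (3 - 3 * a + a ^ 2) / 6 := by
  have hc : Continuous (fun y : ℝ => y * ramp a y) :=
    continuous_id.mul (ramp_continuous a)
  rw [← integral_add_adjacent_intervals (hc.intervalIntegrable 0 (1 - a))
    (hc.intervalIntegrable (1 - a) 1)]
  have h1 : ∫ y in (0:ℝ)..(1 - a), y * ramp a y
      = ∫ y in (0:ℝ)..(1 - a), (0 + a * y + 0 * y ^ 2 + 0 * y ^ 3) := by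
    apply integral_congr
    intro y hy
    rw [Set.uIcc_of_le (by linarith)] at hy
    simp only [ramp_of_le hy.2]
    ring
  have h2 : ∫ y in (1 - a)..1, y * ramp a y
      = ∫ y in (1 - a)..1, (0 + 1 * y + (-1) * y ^ 2 + 0 * y ^ 3) := by
    apply integral_congr
    intro y hy
    rw [Set.uIcc_of_le (by linarith)] at hy
    simp only [ramp_of_ge hy.1]
    ring
  rw [h1, h2, integral_cubic, integral_cubic]
  ring

/-- `∫₀¹ (1-y)² * ramp a = a/3 - a⁴/12`. -/
theorem integral_sq_mul_ramp {a : ℝ} (ha0 : 0 ≤ a) (ha1 : a ≤ 1) :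
    ∫ y in (0:ℝ)..1, (1 - y) ^ 2 * ramp a y = a / 3 - a ^ 4 / 12 := by
  have hc : Continuous (fun y : ℝ => (1 - y) ^ 2 * ramp a y) :=
    ((continuous_const.sub continuous_id).pow 2).mul (ramp_continuous a)
  rw [← integral_add_adjacent_intervals (hc.intervalIntegrable 0 (1 - a))
    (hc.intervalIntegrable (1 - a) 1)]
  have h1 : ∫ y in (0:ℝ)..(1 - a), (1 - y) ^ 2 * ramp a y
      = ∫ y in (0:ℝ)..(1 - a), (a + (-2 * a) * y + a * y ^ 2 + 0 * y ^ 3) := by
    apply integral_congr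
    intro y hy
    rw [Set.uIcc_of_le (by linarith)] at hy
    simp only [ramp_of_le hy.2]
    ring
  have h2 : ∫ y in (1 - a)..1, (1 - y) ^ 2 * ramp a y
      = ∫ y in (1 - a)..1, (1 + (-3) * y + 3 * y ^ 2 + (-1) * y ^ 3) := by
    apply integral_congr
    intro y hy
    rw [Set.uIcc_of_le (by linarith)] at hy
    simp only [ramp_of_ge hy.1]
    ring
  rw [h1, h2, integral_cubic, integral_cubic]
  ring

/-- `∫₀¹ ramp a * ramp b = a b - a² b/2 - b³/6` for `0 ≤ b ≤ a ≤ 1`. -/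
theorem integral_ramp_mul_ramp {a b : ℝ} (hb0 : 0 ≤ b) (hba : b ≤ a) (ha1 : a ≤ 1) :
    ∫ y in (0:ℝ)..1, ramp a y * ramp b y = a * b - a ^ 2 * b / 2 - b ^ 3 / 6 := by
  have hc : Continuous (fun y : ℝ => ramp a y * ramp b y) :=
    (ramp_continuous a).mul (ramp_continuous b)
  rw [← integral_add_adjacent_intervals (hc.intervalIntegrable 0 (1 - b))
    (hc.intervalIntegrable (1 - b) 1),
    ← integral_add_adjacent_intervals (hc.intervalIntegrable 0 (1 - a))
    (hc.intervalIntegrable (1 - a) (1 - b))]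
  have h1 : ∫ y in (0:ℝ)..(1 - a), ramp a y * ramp b y
      = ∫ y in (0:ℝ)..(1 - a), (a * b + 0 * y + 0 * y ^ 2 + 0 * y ^ 3) := by
    apply integral_congr
    intro y hy
    rw [Set.uIcc_of_le (by linarith)] at hy
    simp only [ramp_of_le hy.2, ramp_of_le (show y ≤ 1 - b by linarith [hy.2])]
    ring
  have h2 : ∫ y in (1 - a)..(1 - b), ramp a y * ramp b y
      = ∫ y in (1 - a)..(1 - b), (b + (-b) * y + 0 * y ^ 2 + 0 * y ^ 3) := by
    apply integral_congr
    intro y hy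
    rw [Set.uIcc_of_le (by linarith)] at hy
    simp only [ramp_of_ge hy.1, ramp_of_le hy.2]
    ring
  have h3 : ∫ y in (1 - b)..1, ramp a y * ramp b y
      = ∫ y in (1 - b)..1, (1 + (-2) * y + 1 * y ^ 2 + 0 * y ^ 3) := by
    apply integral_congr
    intro y hy
    rw [Set.uIcc_of_le (by linarith)] at hy
    simp only [ramp_of_ge hy.1, ramp_of_ge (show 1 - a ≤ y by linarith [hy.1])]
    ring
  rw [h1, h2, h3, integral_cubic, integral_cubic, integral_cubic]
  ring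

/-- `∫₀¹ 1 = 1`, `∫₀¹ y = 1/2`, `∫₀¹ (1-y)² = 1/3`. -/
theorem integral_one_unit : ∫ _y in (0:ℝ)..1, (1:ℝ) = 1 := by
  simp

theorem integral_id_unit : ∫ y in (0:ℝ)..1, y * (1:ℝ) = 1 / 2 := by
  have h : ∫ y in (0:ℝ)..1, y * (1:ℝ)
      = ∫ y in (0:ℝ)..1, (0 + 1 * y + 0 * y ^ 2 + 0 * y ^ 3) := by
    apply integral_congr
    intro y _
    ring
  rw [h, integral_cubic]
  norm_num

theorem integral_sq_unit : ∫ y in (0:ℝ)..1, (1 - y) ^ 2 * (1:ℝ) = 1 / 3 := by
  have h : ∫ y in (0:ℝ)..1, (1 - y) ^ 2 * (1:ℝ)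
      = ∫ y in (0:ℝ)..1, (1 + (-2) * y + 1 * y ^ 2 + 0 * y ^ 3) := by
    apply integral_congr
    intro y _
    ring
  rw [h, integral_cubic]
  norm_num

/-- The polar form of `Q(l) = 2 I0² + 3 C I0 - 12 C I1 - J0`, where `I0 = ∫₀¹ l`,
`I1 = ∫₀¹ y l`, `C = ∫₀¹ (1-y)² l`, `J0 = ∫₀¹ l²`. -/
noncomputable def polarB (f g : ℝ → ℝ) : ℝ :=
  2 * (∫ y in (0:ℝ)..1, f y) * (∫ y in (0:ℝ)..1, g y)
    + 3 / 2 * ((∫ y in (0:ℝ)..1, (1 - y) ^ 2 * f y) * (∫ y in (0:ℝ)..1, g y)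
        + (∫ y in (0:ℝ)..1, (1 - y) ^ 2 * g y) * (∫ y in (0:ℝ)..1, f y))
    - 6 * ((∫ y in (0:ℝ)..1, (1 - y) ^ 2 * f y) * (∫ y in (0:ℝ)..1, y * g y)
        + (∫ y in (0:ℝ)..1, (1 - y) ^ 2 * g y) * (∫ y in (0:ℝ)..1, y * f y))
    - ∫ y in (0:ℝ)..1, f y * g y

theorem polarB_comm (f g : ℝ → ℝ) : polarB f g = polarB g f := by
  unfold polarB
  have h : (fun y => f y * g y) = fun y => g y * f y := by
    funext y
    ring
  rw [h]
  ring

/-- The quadratic form itself: `polarB l l = 2 I0² + 3 C I0 - 12 C I1 - J0`. -/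
theorem polarB_self (l : ℝ → ℝ) :
    polarB l l = 2 * (∫ y in (0:ℝ)..1, l y) ^ 2
      + 3 * (∫ y in (0:ℝ)..1, (1 - y) ^ 2 * l y) * (∫ y in (0:ℝ)..1, l y)
      - 12 * (∫ y in (0:ℝ)..1, (1 - y) ^ 2 * l y) * (∫ y in (0:ℝ)..1, y * l y)
      - ∫ y in (0:ℝ)..1, l y ^ 2 := by
  unfold polarB
  have h : (fun y => l y * l y) = fun y => l y ^ 2 := by
    funext y
    ring
  rw [h]
  ring

/-- Closed form of the polar form on two ramps, `0 ≤ b ≤ a ≤ 1`. -/
theorem polarB_ramp_ramp_eq {a b : ℝ} (hb0 : 0 ≤ b) (hba : b ≤ a) (ha1 : a ≤ 1) :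
    polarB (ramp a) (ramp b) = b / 12 * (2 * b ^ 2 - 3 * a * b + 3 * a ^ 2 - 4 * a * b ^ 2
      + 6 * a ^ 2 * b - 4 * a ^ 3 + 3 / 2 * a * b ^ 3 + 3 / 2 * a ^ 4 - 9 / 4 * a ^ 2 * b ^ 3
      - 9 / 4 * a ^ 4 * b + a ^ 3 * b ^ 3 + a ^ 4 * b ^ 2) := by
  have ha0 : 0 ≤ a := hb0.trans hba
  have hb1 : b ≤ 1 := hba.trans ha1
  unfold polarB
  rw [integral_ramp ha0 ha1, integral_ramp hb0 hb1, integral_id_mul_ramp ha0 ha1,
    integral_id_mul_ramp hb0 hb1, integral_sq_mul_ramp ha0 ha1, integral_sq_mul_ramp hb0 hb1,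
    integral_ramp_mul_ramp hb0 hba ha1]
  ring

/-- The polar form is nonnegative on two ramps, `0 ≤ b ≤ a ≤ 1`. -/
theorem polarB_ramp_ramp_nonneg_of_le {a b : ℝ} (hb0 : 0 ≤ b) (hba : b ≤ a) (ha1 : a ≤ 1) :
    0 ≤ polarB (ramp a) (ramp b) := by
  rw [polarB_ramp_ramp_eq hb0 hba ha1]
  exact mul_nonneg (by linarith) (gen_bilin_poly a b hb0 hba ha1)

/-- The polar form is nonnegative on any two ramps with parameters in `[0,1]`. -/
theorem polarB_ramp_ramp_nonneg {a b : ℝ} (ha0 : 0 ≤ a) (ha1 : a ≤ 1) (hb0 : 0 ≤ b)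
    (hb1 : b ≤ 1) : 0 ≤ polarB (ramp a) (ramp b) := by
  rcases le_total b a with h | h
  · exact polarB_ramp_ramp_nonneg_of_le hb0 h ha1
  · rw [polarB_comm]
    exact polarB_ramp_ramp_nonneg_of_le ha0 h hb1

/-- Closed form of the polar form on a ramp and the constant `1`. -/
theorem polarB_ramp_one_eq {a : ℝ} (ha0 : 0 ≤ a) (ha1 : a ≤ 1) :
    polarB (ramp a) (fun _ => 1) = a ^ 2 * (6 - 8 * a + 3 * a ^ 2) / 24 := by
  unfold polarB
  have h : (fun y => ramp a y * (1:ℝ)) = fun y => ramp a y := by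
    funext y
    ring
  rw [h, integral_ramp ha0 ha1, integral_id_mul_ramp ha0 ha1, integral_sq_mul_ramp ha0 ha1,
    integral_one_unit, integral_id_unit, integral_sq_unit]
  ring

/-- The polar form is nonnegative on a ramp and the constant `1`. -/
theorem polarB_ramp_one_nonneg {a : ℝ} (ha0 : 0 ≤ a) (ha1 : a ≤ 1) :
    0 ≤ polarB (ramp a) (fun _ => 1) := by
  rw [polarB_ramp_one_eq ha0 ha1]
  have h : 0 ≤ 6 - 8 * a + 3 * a ^ 2 := by nlinarith [sq_nonneg (3 * a - 4)]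
  positivity

/-- The polar form is nonnegative on the constant `1` and a ramp. -/
theorem polarB_one_ramp_nonneg {a : ℝ} (ha0 : 0 ≤ a) (ha1 : a ≤ 1) :
    0 ≤ polarB (fun _ => 1) (ramp a) := by
  rw [polarB_comm]
  exact polarB_ramp_one_nonneg ha0 ha1

/-- The polar form vanishes on the pair of constants (equality case of `Q ≥ 0`). -/
theorem polarB_one_one : polarB (fun _ => 1) (fun _ => 1) = 0 := by
  unfold polarB
  have h : ∫ _y in (0:ℝ)..1, (1:ℝ) * 1 = 1 := by simp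
  rw [h, integral_one_unit, integral_id_unit, integral_sq_unit]
  norm_num

end Vale.Agent.Lib.P254.H75
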