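import Mathlib
import Vale.Agent.Lib.P254.PWJ.RampInt

/-!
# P254, the polar form as a linear functional

For fixed `f` the map `g ↦ polarB f g` is integration against the kernel `polarKer f` over
`[0,1]`.  This is the bridge between the polar form on ramps (`RampInt`) and a positivity
criterion for linear functionals on the cone of concave nonincreasing functions.
-/

namespace Vale.Agent.Lib.P254.H75

open MeasureTheory intervalIntegral

/-- The kernel of the linear functional `g ↦ polarB f g`. -/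
noncomputable def polarKer (f : ℝ → ℝ) (y : ℝ) : ℝ :=
  2 * (∫ t in (0:ℝ)..1, f t)
    + 3 / 2 * ((∫ t in (0:ℝ)..1, (1 - t) ^ 2 * f t) + (1 - y) ^ 2 * (∫ t in (0:ℝ)..1, f t))
    - 6 * ((∫ t in (0:ℝ)..1, (1 - t) ^ 2 * f t) * y
        + (1 - y) ^ 2 * (∫ t in (0:ℝ)..1, t * f t))
    - f y

/-- The kernel is interval integrable when `f` is. -/
theorem polarKer_intervalIntegrable (f : ℝ → ℝ) (hf : IntervalIntegrable f volume 0 1) :
    IntervalIntegrable (polarKer f) volume 0 1 := by
  have hc : Continuous (fun y : ℝ => 2 * (∫ t in (0:ℝ)..1, f t)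
      + 3 / 2 * ((∫ t in (0:ℝ)..1, (1 - t) ^ 2 * f t) + (1 - y) ^ 2 * (∫ t in (0:ℝ)..1, f t))
      - 6 * ((∫ t in (0:ℝ)..1, (1 - t) ^ 2 * f t) * y
          + (1 - y) ^ 2 * (∫ t in (0:ℝ)..1, t * f t))) := by
    fun_prop
  exact (hc.intervalIntegrable 0 1).sub hf

/-- `polarB f g = ∫₀¹ polarKer f * g`. -/
theorem polarB_eq_integral_polarKer (f g : ℝ → ℝ) (hg : IntervalIntegrable g volume 0 1)
    (hfg : IntervalIntegrable (fun y => f y * g y) volume 0 1) :
    polarB f g = ∫ y in (0:ℝ)..1, polarKer f y * g y := by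
  have hg1 : IntervalIntegrable (fun y => y * g y) volume 0 1 :=
    hg.continuousOn_mul continuousOn_id
  have hg2 : IntervalIntegrable (fun y => (1 - y) ^ 2 * g y) volume 0 1 :=
    hg.continuousOn_mul (by fun_prop)
  have hpt : ∀ y, polarKer f y * g y
      = (2 * (∫ t in (0:ℝ)..1, f t) + 3 / 2 * (∫ t in (0:ℝ)..1, (1 - t) ^ 2 * f t)) * g y
        + (3 / 2 * (∫ t in (0:ℝ)..1, f t) - 6 * (∫ t in (0:ℝ)..1, t * f t))
            * ((1 - y) ^ 2 * g y)
        + (-6 * (∫ t in (0:ℝ)..1, (1 - t) ^ 2 * f t)) * (y * g y)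
        - f y * g y := by
    intro y
    unfold polarKer
    ring
  have e1 : ∫ y in (0:ℝ)..1, polarKer f y * g y
      = (2 * (∫ t in (0:ℝ)..1, f t) + 3 / 2 * (∫ t in (0:ℝ)..1, (1 - t) ^ 2 * f t))
          * (∫ y in (0:ℝ)..1, g y)
        + (3 / 2 * (∫ t in (0:ℝ)..1, f t) - 6 * (∫ t in (0:ℝ)..1, t * f t))
            * (∫ y in (0:ℝ)..1, (1 - y) ^ 2 * g y)
        + (-6 * (∫ t in (0:ℝ)..1, (1 - t) ^ 2 * f t)) * (∫ y in (0:ℝ)..1, y * g y)
        - ∫ y in (0:ℝ)..1, f y * g y := by
    rw [integral_congr (fun y _ => hpt y)]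
    rw [integral_sub (((hg.const_mul _).add (hg2.const_mul _)).add (hg1.const_mul _)) hfg,
      integral_add ((hg.const_mul _).add (hg2.const_mul _)) (hg1.const_mul _),
      integral_add (hg.const_mul _) (hg2.const_mul _),
      intervalIntegral.integral_const_mul, intervalIntegral.integral_const_mul,
      intervalIntegral.integral_const_mul]
  rw [e1]
  unfold polarB
  ring

/-- `∫₀¹ polarKer f = polarB f 1`. -/
theorem integral_polarKer (f : ℝ → ℝ) (hf : IntervalIntegrable f volume 0 1) :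
    ∫ y in (0:ℝ)..1, polarKer f y = polarB f (fun _ => 1) := by
  have h := polarB_eq_integral_polarKer f (fun _ => 1) intervalIntegrable_const
    (by simpa using hf)
  rw [h]
  apply integral_congr
  intro y _
  ring

/-- `∫₀¹ polarKer f * ramp a = polarB f (ramp a)` for interval integrable `f`. -/
theorem integral_polarKer_mul_ramp (f : ℝ → ℝ) (hf : IntervalIntegrable f volume 0 1)
    (a : ℝ) : ∫ y in (0:ℝ)..1, polarKer f y * ramp a y = polarB f (ramp a) := by
  have hfr : IntervalIntegrable (fun y => f y * ramp a y) volume 0 1 :=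
    hf.mul_continuousOn (ramp_continuous a).continuousOn
  exact (polarB_eq_integral_polarKer f (ramp a) ((ramp_continuous a).intervalIntegrable 0 1)
    hfr).symm

end Vale.Agent.Lib.P254.H75
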