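import Mathlib
import Vale.Agent.Lib.P254.PWJ.PolarKer
import Vale.Agent.Lib.P254.PWJ.Quad.ConcavePos

/-!
# P254, route (h76-6), Lemma 3: a quadratic inequality for concave antitone functions

For `l ≥ 0` concave and antitone on `[0, M]`, with `I0 = ∫ l`, `I1 = ∫ y l`, `C = ∫ (M-y)^2 l`,
`J0 = ∫ l^2`:  `12 C I1 + M^4 J0 ≤ 2 M^3 I0^2 + 3 M C I0`  (equality for constant `l`).
-/

open MeasureTheory Set

namespace Vale.Agent.Lib.P254

/-- The quadratic form `2 I0² + 3 C I0 - 12 C I1 - J0` on `[0,1]` is nonnegative on concave,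
antitone, nonnegative functions: three applications of the positivity criterion for linear
functionals to the kernels of the polar form. -/
theorem quad_concave_unit (l : ℝ → ℝ) (hl0 : ∀ y ∈ Icc (0:ℝ) 1, 0 ≤ l y)
    (hanti : AntitoneOn l (Icc 0 1)) (hconc : ConcaveOn ℝ (Icc 0 1) l) :
    0 ≤ H75.polarB l l := by
  have hli : IntervalIntegrable l volume 0 1 :=
    AntitoneOn.intervalIntegrable (by rw [uIcc_of_le zero_le_one]; exact hanti)
  have hci : IntervalIntegrable (fun _ : ℝ => (1:ℝ)) volume 0 1 := intervalIntegrable_const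
  have h1l : 0 ≤ H75.polarB (fun _ => 1) l := by
    have hk := H75.polarKer_intervalIntegrable (fun _ => (1:ℝ)) hci
    have h := PWJ.concave_pos_functional (H75.polarKer (fun _ => 1)) hk
      (by rw [H75.integral_polarKer _ hci, H75.polarB_one_one])
      (fun c hc => by
        show 0 ≤ ∫ y in (0:ℝ)..1, H75.polarKer (fun _ => 1) y * H75.ramp (1 - c) y
        rw [H75.integral_polarKer_mul_ramp _ hci (1 - c)]
        exact H75.polarB_one_ramp_nonneg (by linarith [hc.2]) (by linarith [hc.1]))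
      l hconc hanti hl0
    rwa [← H75.polarB_eq_integral_polarKer _ l hli (by simpa using hli)] at h
  have hrl : ∀ c ∈ Icc (0:ℝ) 1, 0 ≤ H75.polarB (H75.ramp (1 - c)) l := by
    intro c hc
    have hri : IntervalIntegrable (H75.ramp (1 - c)) volume 0 1 :=
      (H75.ramp_continuous _).intervalIntegrable 0 1
    have hk := H75.polarKer_intervalIntegrable (H75.ramp (1 - c)) hri
    have h := PWJ.concave_pos_functional (H75.polarKer (H75.ramp (1 - c))) hk
      (by
        rw [H75.integral_polarKer _ hri]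
        exact H75.polarB_ramp_one_nonneg (by linarith [hc.2]) (by linarith [hc.1]))
      (fun d hd => by
        show 0 ≤ ∫ y in (0:ℝ)..1, H75.polarKer (H75.ramp (1 - c)) y * H75.ramp (1 - d) y
        rw [H75.integral_polarKer_mul_ramp _ hri (1 - d)]
        exact H75.polarB_ramp_ramp_nonneg (by linarith [hc.2]) (by linarith [hc.1])
          (by linarith [hd.2]) (by linarith [hd.1]))
      l hconc hanti hl0
    rwa [← H75.polarB_eq_integral_polarKer _ l hli
      (hli.continuousOn_mul (H75.ramp_continuous _).continuousOn)] at h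
  have hk := H75.polarKer_intervalIntegrable l hli
  have hll : IntervalIntegrable (fun y => l y * l y) volume 0 1 := by
    have hsq : AntitoneOn (fun y => l y * l y) (Icc 0 1) := by
      intro x hx y hy hxy
      have h1 := hanti hx hy hxy
      exact mul_le_mul h1 h1 (hl0 y hy) (hl0 x hx)
    exact AntitoneOn.intervalIntegrable (by rw [uIcc_of_le zero_le_one]; exact hsq)
  have h := PWJ.concave_pos_functional (H75.polarKer l) hk
    (by rw [H75.integral_polarKer _ hli, H75.polarB_comm]; exact h1l)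
    (fun c hc => by
      show 0 ≤ ∫ y in (0:ℝ)..1, H75.polarKer l y * H75.ramp (1 - c) y
      rw [H75.integral_polarKer_mul_ramp _ hli (1 - c), H75.polarB_comm]
      exact hrl c hc)
    l hconc hanti hl0
  rwa [← H75.polarB_eq_integral_polarKer l l hli hll] at h

theorem quad_concave (M : ℝ) (hM : 0 < M) (l : ℝ → ℝ) (hl0 : ∀ y ∈ Icc 0 M, 0 ≤ l y)
    (hanti : AntitoneOn l (Icc 0 M)) (hconc : ConcaveOn ℝ (Icc 0 M) l) :
    12 * (∫ y in (0:ℝ)..M, (M - y) ^ 2 * l y) * (∫ y in (0:ℝ)..M, y * l y)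
        + M ^ 4 * (∫ y in (0:ℝ)..M, l y ^ 2)
      ≤ 2 * M ^ 3 * (∫ y in (0:ℝ)..M, l y) ^ 2
        + 3 * M * (∫ y in (0:ℝ)..M, (M - y) ^ 2 * l y) * (∫ y in (0:ℝ)..M, l y) := by
  have hMne : M ≠ 0 := hM.ne'
  have hmem : ∀ s ∈ Icc (0:ℝ) 1, M * s ∈ Icc 0 M := by
    intro s hs
    exact ⟨mul_nonneg hM.le hs.1, by nlinarith [hs.2]⟩
  set lt : ℝ → ℝ := fun s => l (M * s) with hlt
  have hlt0 : ∀ s ∈ Icc (0:ℝ) 1, 0 ≤ lt s := fun s hs => hl0 _ (hmem s hs)
  have hltanti : AntitoneOn lt (Icc 0 1) := by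
    intro x hx y hy hxy
    exact hanti (hmem x hx) (hmem y hy) (mul_le_mul_of_nonneg_left hxy hM.le)
  have hltconc : ConcaveOn ℝ (Icc 0 1) lt := by
    refine ⟨convex_Icc 0 1, fun x hx y hy a b ha hb hab => ?_⟩
    have h := hconc.2 (hmem x hx) (hmem y hy) ha hb hab
    have e : M * (a • x + b • y) = a • (M * x) + b • (M * y) := by
      simp only [smul_eq_mul]
      ring
    show a • lt x + b • lt y ≤ lt (a • x + b • y)
    simp only [hlt]
    rw [e]
    exact h
  have key := quad_concave_unit lt hlt0 hltanti hltconc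
  rw [H75.polarB_self] at key
  have hscale : ∀ g : ℝ → ℝ, ∫ s in (0:ℝ)..1, g (M * s) = M⁻¹ * ∫ y in (0:ℝ)..M, g y := by
    intro g
    have h := intervalIntegral.integral_comp_mul_left (a := 0) (b := 1) g hMne
    simpa using h
  have e0 : ∫ s in (0:ℝ)..1, lt s = M⁻¹ * ∫ y in (0:ℝ)..M, l y := hscale l
  have e3 : ∫ s in (0:ℝ)..1, lt s ^ 2 = M⁻¹ * ∫ y in (0:ℝ)..M, l y ^ 2 :=
    hscale (fun y => l y ^ 2)
  have e1 : ∫ s in (0:ℝ)..1, s * lt s = M⁻¹ ^ 2 * ∫ y in (0:ℝ)..M, y * l y := by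
    have h := hscale (fun y => y * l y)
    have h' : ∫ s in (0:ℝ)..1, s * lt s = M⁻¹ * ∫ s in (0:ℝ)..1, (M * s) * l (M * s) := by
      rw [← intervalIntegral.integral_const_mul]
      apply intervalIntegral.integral_congr
      intro s _
      simp only [hlt]
      field_simp
    rw [h', h]
    ring
  have e2 : ∫ s in (0:ℝ)..1, (1 - s) ^ 2 * lt s
      = M⁻¹ ^ 3 * ∫ y in (0:ℝ)..M, (M - y) ^ 2 * l y := by
    have h := hscale (fun y => (M - y) ^ 2 * l y)
    have h' : ∫ s in (0:ℝ)..1, (1 - s) ^ 2 * lt s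
        = M⁻¹ ^ 2 * ∫ s in (0:ℝ)..1, (M - M * s) ^ 2 * l (M * s) := by
      rw [← intervalIntegral.integral_const_mul]
      apply intervalIntegral.integral_congr
      intro s _
      simp only [hlt]
      field_simp
    rw [h', h]
    ring
  rw [e0, e1, e2, e3] at key
  set I0 := ∫ y in (0:ℝ)..M, l y with hI0
  set I1 := ∫ y in (0:ℝ)..M, y * l y with hI1
  set C := ∫ y in (0:ℝ)..M, (M - y) ^ 2 * l y with hC
  set J0 := ∫ y in (0:ℝ)..M, l y ^ 2 with hJ0
  have hM5 : 0 < M ^ 5 := by positivity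
  have e : (2 * (M⁻¹ * I0) ^ 2 + 3 * (M⁻¹ ^ 3 * C) * (M⁻¹ * I0)
      - 12 * (M⁻¹ ^ 3 * C) * (M⁻¹ ^ 2 * I1) - M⁻¹ * J0) * M ^ 5
      = 2 * M ^ 3 * I0 ^ 2 + 3 * M * C * I0 - 12 * C * I1 - M ^ 4 * J0 := by
    field_simp
  have h2 := mul_nonneg key hM5.le
  rw [e] at h2
  linarith

end Vale.Agent.Lib.P254
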