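import Vale.Agent.Lib.P254.PWJ.Transfer
import Vale.Agent.Lib.P254.PWJ.Facet
import Vale.Agent.Lib.P254.PWJ.Quad
import Vale.Agent.Lib.P254.PWJ.JOne
import Vale.Agent.Lib.P254.Sym.SecLC

/-!
# P254, route (h76-6): the inequality (PWJ) for a convex corner in `ℝ³`

`L` a corner with coordinates `(z, y, x) = (0, 1, 2)`, `F = sec L 0` its bottom facet.  Then
`|F|² |L|² ≥ 4 ((∫_F y)(∫_L x)|L| + (∫_L y)(∫_F x)|L| - (∫_L y)(∫_L x)|F|)`.
-/

open MeasureTheory Set

namespace Vale.Agent.Lib.P254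

/-- Area and first moments of a planar corner through its chord function. -/
theorem facet_data {F : Set (Fin 2 → ℝ)} (hF : Corner F) {M : ℝ} (hM : 0 ≤ M)
    (hMmax : ∀ w ∈ F, w 0 ≤ M) :
    vol F = ∫ y in (0:ℝ)..M, vol (sec F y) ∧
    ∫ w in F, w 0 = ∫ y in (0:ℝ)..M, y * vol (sec F y) ∧
    ∫ w in F, w 1 = (∫ y in (0:ℝ)..M, vol (sec F y) ^ 2) / 2 := by
  refine ⟨vol_eq_profile hF hM hMmax, moment_zero_eq_profile hF hM hMmax, ?_⟩
  have h := moment_succ_eq_profile hF hM hMmax (0 : Fin 1)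
  have e : ((0 : Fin 1).succ : Fin 2) = 1 := rfl
  rw [e] at h
  rw [h, ← intervalIntegral.integral_div]
  refine intervalIntegral.integral_congr (fun y _ => ?_)
  exact corner_one_integral (corner_sec hF y)

/-- The planar centroid inequality `4 (∫_F y)(∫_F x) ≤ |F|³` for a planar corner. -/
theorem j1_facet {F : Set (Fin 2 → ℝ)} (hF : Corner F) :
    4 * (∫ w in F, w 0) * (∫ w in F, w 1) ≤ vol F ^ 3 := by
  rcases F.eq_empty_or_nonempty with hemp | hne
  · subst hemp
    simp [vol]
  obtain ⟨M, hM, -, hMmax⟩ := corner_extent hF hne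
  obtain ⟨h0, h1, h2⟩ := facet_data hF hM hMmax
  have hj := j1_interval M hM (fun y => vol (sec F y)) (fun t _ => ENNReal.toReal_nonneg)
    (profile_antitone hF M)
    (fun x y r _ hxy hr _ => sec_vol_four_point hF.1 hF.2.1 x y r hxy hr)
  rw [h0, h1, h2]
  linarith

/-- A null facet has zero moments. -/
theorem facet_null {F : Set (Fin 2 → ℝ)} (hF : Corner F) (h0 : vol F = 0) (j : Fin 2) :
    ∫ w in F, w j = 0 := by
  have hfin : volume F ≠ ⊤ := hF.1.measure_lt_top.ne
  have hz : volume F = 0 := by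
    rcases (ENNReal.toReal_eq_zero_iff _).1 h0 with h | h
    · exact h
    · exact absurd h hfin
  exact setIntegral_measure_zero _ hz

/-- (PWJ) when the centroid of `L` is below the centroid of the facet in the coordinate `1`
and above it in the coordinate `2`. -/
theorem pwj_half {L : Set (Fin 3 → ℝ)} (hL : Corner L)
    (h1 : (∫ x in L, x 1) * vol (sec L 0) ≤ (∫ w in sec L 0, w 0) * vol L)
    (h2 : (∫ w in sec L 0, w 1) * vol L ≤ (∫ x in L, x 2) * vol (sec L 0)) :
    4 * ((∫ w in sec L 0, w 0) * (∫ x in L, x 2) * vol L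
          + (∫ x in L, x 1) * (∫ w in sec L 0, w 1) * vol L
          - (∫ x in L, x 1) * (∫ x in L, x 2) * vol (sec L 0))
      ≤ vol (sec L 0) ^ 2 * vol L ^ 2 := by
  have hF : Corner (sec L 0) := corner_sec hL 0
  set F := sec L 0 with hFdef
  set a := vol F with ha
  set V := vol L with hV
  set X1 := ∫ x in L, x 1 with hX1
  set X2 := ∫ x in L, x 2 with hX2
  set P0 := ∫ w in F, w 0 with hP0
  set P1 := ∫ w in F, w 1 with hP1
  have ha0 : 0 ≤ a := ENNReal.toReal_nonneg
  have hV0 : 0 ≤ V := ENNReal.toReal_nonneg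
  rcases ha0.eq_or_lt with hazero | hapos
  · -- null facet
    have e0 : P0 = 0 := facet_null hF hazero.symm 0
    have e1 : P1 = 0 := facet_null hF hazero.symm 1
    rw [e0, e1, ← hazero]
    simp
  have hne : F.Nonempty := by
    by_contra hcon
    rw [not_nonempty_iff_eq_empty] at hcon
    rw [ha, hcon] at hapos
    simp [vol] at hapos
  obtain ⟨M, hM, hMmem, hMmax⟩ := corner_extent hF hne
  have hpL : (![0, M, 0] : Fin 3 → ℝ) ∈ L := by
    have h := mem_sec.1 hMmem
    have e : (![0, M, 0] : Fin 3 → ℝ) = Fin.cons 0 (Fin.cons M 0) := by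
      ext i
      fin_cases i <;> rfl
    rw [e]
    exact h
  have hMF : (![M, 0] : Fin 2 → ℝ) ∈ F := by
    have e : (![M, 0] : Fin 2 → ℝ) = Fin.cons M 0 := by
      ext i
      fin_cases i <;> rfl
    rw [e]
    exact hMmem
  have hMmaxL : ∀ x ∈ L, x 1 ≤ M := by
    intro x hx
    have hmem : (Fin.tail x : Fin 2 → ℝ) ∈ F := by
      rw [hFdef, mem_sec]
      refine hL.2.2.2 x hx _ ?_ ?_
      · intro i
        refine Fin.cases ?_ (fun j => ?_) i
        · simp
        · simpa [Fin.tail] using hL.2.2.1 x hx j.succ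
      · intro i
        refine Fin.cases ?_ (fun j => ?_) i
        · simpa using hL.2.2.1 x hx 0
        · simp [Fin.tail]
    exact hMmax _ hmem
  obtain ⟨f0, f1, f2⟩ := facet_data hF hM hMmax
  rcases hM.eq_or_lt with hMzero | hMpos
  · -- degenerate facet: the coordinate `1` vanishes on `L` and on `F`
    exfalso
    have hI : (∫ y in (0:ℝ)..M, vol (sec F y)) = 0 := by
      rw [← hMzero]
      simp
    rw [← f0] at hI
    exact absurd hI (ne_of_gt hapos)
  -- main case
  have hE := centroid_ge_quarter_one hL hpL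
  have hp1 : (![0, M, 0] : Fin 3 → ℝ) 1 = M := by simp
  rw [hp1] at hE
  have hU := moment_le_cone_one hL hMpos hpL hMmaxL
  have hQ := quad_concave M hMpos (fun y => vol (sec F y)) (fun t _ => ENNReal.toReal_nonneg)
    (profile_antitone hF M) (chord_concave hF hMF)
  set C := ∫ y in (0:ℝ)..M, (M - y) ^ 2 * vol (sec F y) with hC
  set I0 := ∫ y in (0:ℝ)..M, vol (sec F y) with hI0
  set I1 := ∫ y in (0:ℝ)..M, y * vol (sec F y) with hI1
  set J0 := ∫ y in (0:ℝ)..M, vol (sec F y) ^ 2 with hJ0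
  -- f0 : a = I0, f1 : P0 = I1, f2 : P1 = J0 / 2
  have f0' : a = I0 := f0
  have f1' : P0 = I1 := f1
  have f2' : P1 = J0 / 2 := f2
  have hJ : J0 = 2 * P1 := by linarith
  rw [← f0', ← f1', hJ] at hQ
  -- hQ : 12 * C * P0 + M ^ 4 * (2 * P1) ≤ 2 * M ^ 3 * a ^ 2 + 3 * M * C * a
  -- hE : M / 4 * V ≤ X1,  hU : 2 * M ^ 3 * X2 ≤ 3 * C * V
  set c3 := 2 * M ^ 3 with hc3
  have hc3pos : 0 < c3 := by positivity
  set D1 := P0 * V - X1 * a with hD1
  set D2 := X2 * a - P1 * V with hD2
  have hD1nn : 0 ≤ D1 := by rw [hD1]; linarith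
  have hD2nn : 0 ≤ D2 := by rw [hD2]; linarith
  have hD1le : D1 ≤ (P0 - M / 4 * a) * V := by
    have := mul_le_mul_of_nonneg_right hE ha0
    rw [hD1]
    nlinarith
  have hD2le : c3 * D2 ≤ (3 * C * a - c3 * P1) * V := by
    have := mul_le_mul_of_nonneg_right hU ha0
    rw [hD2]
    nlinarith
  have hprod : D1 * (c3 * D2) ≤ ((P0 - M / 4 * a) * V) * ((3 * C * a - c3 * P1) * V) :=
    mul_le_mul hD1le hD2le (mul_nonneg hc3pos.le hD2nn) (le_trans hD1nn hD1le)
  set R := 4 * (P0 * X2 * V + X1 * P1 * V - X1 * X2 * a) with hR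
  have hid : c3 * (a * R) = 4 * c3 * P0 * P1 * V ^ 2 + 4 * (D1 * (c3 * D2)) := by
    rw [hR, hD1, hD2]
    ring
  have hkey : c3 * (a * R) ≤ c3 * (a ^ 3 * V ^ 2) := by
    rw [hid]
    have hexp : 4 * c3 * P0 * P1 * V ^ 2
        + 4 * (((P0 - M / 4 * a) * V) * ((3 * C * a - c3 * P1) * V))
        = V ^ 2 * (a * (12 * C * P0 + M ^ 4 * (2 * P1) - 3 * M * C * a)) := by
      rw [hc3]
      ring
    have hq2 : a * (12 * C * P0 + M ^ 4 * (2 * P1) - 3 * M * C * a) ≤ a * (c3 * a ^ 2) := by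
      apply mul_le_mul_of_nonneg_left _ ha0
      rw [hc3]
      linarith
    have hV2 : 0 ≤ V ^ 2 := sq_nonneg V
    calc 4 * c3 * P0 * P1 * V ^ 2 + 4 * (D1 * (c3 * D2))
        ≤ 4 * c3 * P0 * P1 * V ^ 2
          + 4 * (((P0 - M / 4 * a) * V) * ((3 * C * a - c3 * P1) * V)) := by linarith
      _ = V ^ 2 * (a * (12 * C * P0 + M ^ 4 * (2 * P1) - 3 * M * C * a)) := hexp
      _ ≤ V ^ 2 * (a * (c3 * a ^ 2)) := mul_le_mul_of_nonneg_left hq2 hV2
      _ = c3 * (a ^ 3 * V ^ 2) := by ring
  have hkey2 : a * R ≤ a * (a ^ 2 * V ^ 2) := by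
    have := le_of_mul_le_mul_left hkey hc3pos
    calc a * R ≤ a ^ 3 * V ^ 2 := this
      _ = a * (a ^ 2 * V ^ 2) := by ring
  exact le_of_mul_le_mul_left hkey2 hapos

/-- **(PWJ)** for a convex corner in `ℝ³` with bottom facet `sec L 0`. -/
theorem pwj_corner {L : Set (Fin 3 → ℝ)} (hL : Corner L) :
    4 * ((∫ w in sec L 0, w 0) * (∫ x in L, x 2) * vol L
          + (∫ x in L, x 1) * (∫ w in sec L 0, w 1) * vol L
          - (∫ x in L, x 1) * (∫ x in L, x 2) * vol (sec L 0))
      ≤ vol (sec L 0) ^ 2 * vol L ^ 2 := by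
  have hF : Corner (sec L 0) := corner_sec hL 0
  by_cases hA : (∫ x in L, x 1) * vol (sec L 0) ≤ (∫ w in sec L 0, w 0) * vol L
  · by_cases hB : (∫ w in sec L 0, w 1) * vol L ≤ (∫ x in L, x 2) * vol (sec L 0)
    · exact pwj_half hL hA hB
    · -- both centroids of `L` are below those of the facet: planar inequality
      rw [not_le] at hB
      have hj := j1_facet hF
      have ha0 : 0 ≤ vol (sec L 0) := ENNReal.toReal_nonneg
      rcases ha0.eq_or_lt with hazero | hapos
      · have e0 := facet_null hF hazero.symm 0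
        have e1 := facet_null hF hazero.symm 1
        rw [e0, e1, ← hazero]
        simp
      · have hV2 : 0 ≤ vol L ^ 2 := sq_nonneg _
        have hprod : 0 ≤ ((∫ w in sec L 0, w 0) * vol L - (∫ x in L, x 1) * vol (sec L 0))
            * ((∫ w in sec L 0, w 1) * vol L - (∫ x in L, x 2) * vol (sec L 0)) :=
          mul_nonneg (by linarith) (by linarith)
        have h3 : 4 * (∫ w in sec L 0, w 0) * (∫ w in sec L 0, w 1) * vol L ^ 2
            ≤ vol (sec L 0) ^ 3 * vol L ^ 2 := mul_le_mul_of_nonneg_right hj hV2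
        refine le_of_mul_le_mul_left ?_ hapos
        nlinarith
  · rw [not_le] at hA
    by_cases hB : (∫ x in L, x 2) * vol (sec L 0) ≤ (∫ w in sec L 0, w 1) * vol L
    · -- mirror case: swap the coordinates `1` and `2`
      have hL' : Corner (permSet (Equiv.swap (1 : Fin 3) 2) L) := corner_permSet hL _
      have hv : vol (permSet (Equiv.swap (1 : Fin 3) 2) L) = vol L := vol_permSet _ _
      have hx1 : ∫ x in permSet (Equiv.swap (1 : Fin 3) 2) L, x 1 = ∫ x in L, x 2 := by
        have h := setIntegral_permSet (Equiv.swap (1 : Fin 3) 2) L (fun x => x 2)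
        simpa using h
      have hx2 : ∫ x in permSet (Equiv.swap (1 : Fin 3) 2) L, x 2 = ∫ x in L, x 1 := by
        have h := setIntegral_permSet (Equiv.swap (1 : Fin 3) 2) L (fun x => x 1)
        simpa using h
      have hs : sec (permSet (Equiv.swap (1 : Fin 3) 2) L) 0
          = permSet (Equiv.swap (0 : Fin 2) 1) (sec L 0) := sec_swap12 L 0
      have hva : vol (sec (permSet (Equiv.swap (1 : Fin 3) 2) L) 0) = vol (sec L 0) := by
        rw [hs]
        exact vol_permSet _ _
      have hp0 : ∫ w in sec (permSet (Equiv.swap (1 : Fin 3) 2) L) 0, w 0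
          = ∫ w in sec L 0, w 1 := by
        rw [hs]
        have h := setIntegral_permSet (Equiv.swap (0 : Fin 2) 1) (sec L 0) (fun w => w 1)
        simpa using h
      have hp1 : ∫ w in sec (permSet (Equiv.swap (1 : Fin 3) 2) L) 0, w 1
          = ∫ w in sec L 0, w 0 := by
        rw [hs]
        have h := setIntegral_permSet (Equiv.swap (0 : Fin 2) 1) (sec L 0) (fun w => w 0)
        simpa using h
      have h := pwj_half hL' (by rw [hx1, hva, hp0, hv]; exact hB)
        (by rw [hp1, hv, hx2, hva]; exact hA.le)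
      rw [hx1, hx2, hva, hp0, hp1, hv] at h
      linarith
    · rw [not_le] at hB
      have hj := j1_facet hF
      have ha0 : 0 ≤ vol (sec L 0) := ENNReal.toReal_nonneg
      rcases ha0.eq_or_lt with hazero | hapos
      · have e0 := facet_null hF hazero.symm 0
        have e1 := facet_null hF hazero.symm 1
        rw [e0, e1, ← hazero]
        simp
      · have hV2 : 0 ≤ vol L ^ 2 := sq_nonneg _
        have hprod : 0 ≤ ((∫ x in L, x 1) * vol (sec L 0) - (∫ w in sec L 0, w 0) * vol L)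
            * ((∫ x in L, x 2) * vol (sec L 0) - (∫ w in sec L 0, w 1) * vol L) :=
          mul_nonneg (by linarith) (by linarith)
        have h3 : 4 * (∫ w in sec L 0, w 0) * (∫ w in sec L 0, w 1) * vol L ^ 2
            ≤ vol (sec L 0) ^ 3 * vol L ^ 2 := mul_le_mul_of_nonneg_right hj hV2
        refine le_of_mul_le_mul_left ?_ hapos
        nlinarith

end Vale.Agent.Lib.P254
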