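import Vale.Agent.Lib.P254.Unc.Defs
import Vale.Agent.Lib.P254.Sym.Slice

/-!
# P254, route (h76-6): definitions

`permSet σ K` is `K` with its coordinates permuted; `tailSet K z` is the part of `K` above
height `z` of the coordinate `0`, moved down by `z`.
-/

open MeasureTheory Set

namespace Vale.Agent.Lib.P254

/-- The set `K` with its coordinates permuted by `σ`. -/
def permSet {n : ℕ} (σ : Equiv.Perm (Fin n)) (K : Set (Fin n → ℝ)) : Set (Fin n → ℝ) :=
  {x | x ∘ σ ∈ K}

/-- The tail body of `K` at height `z` of the coordinate `0`: the part of `K` above that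
height, moved down by `z`. -/
def tailSet {n : ℕ} (K : Set (Fin (n+1) → ℝ)) (z : ℝ) : Set (Fin (n+1) → ℝ) :=
  {p | 0 ≤ p 0 ∧ Function.update p 0 (p 0 + z) ∈ K}

end Vale.Agent.Lib.P254
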