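import Vale.Agent.Lib.P254.PWJ.OneDim

/-!
# P254, route (h76-6): the section profile of a corner along the coordinate `0`
(slicing identities, monotonicity, integrability)
-/

open MeasureTheory Set

namespace Vale.Agent.Lib.P254

variable {n : ℕ} {K : Set (Fin (n+1) → ℝ)}

/-- A bounded measurable function is interval integrable. -/
private lemma profA_ii (g : ℝ → ℝ) (hg : Measurable g) (M : ℝ) (hM : ∀ t, |g t| ≤ M)
    (a b : ℝ) : IntervalIntegrable g volume a b := by
  rw [intervalIntegrable_iff]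
  have hfin : volume (Set.uIoc a b) ≠ ⊤ :=
    (lt_of_le_of_lt (measure_mono uIoc_subset_uIcc) isCompact_uIcc.measure_lt_top).ne
  refine Measure.integrableOn_of_bounded (M := M) hfin hg.aestronglyMeasurable ?_
  exact Filter.Eventually.of_forall fun t => by
    rw [Real.norm_eq_abs]
    exact hM t

/-- A function on the line vanishing outside `[0, T]` has its integral over `[0, T]`. -/
private lemma profA_int (g : ℝ → ℝ) {T : ℝ} (hT : 0 ≤ T) (h0 : ∀ t, t < 0 → g t = 0)
    (h1 : ∀ t, T < t → g t = 0) : ∫ t, g t = ∫ t in (0:ℝ)..T, g t := by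
  rw [intervalIntegral.integral_of_le hT, ← integral_Icc_eq_integral_Ioc]
  refine (setIntegral_eq_integral_of_forall_compl_eq_zero fun t ht => ?_).symm
  rw [mem_Icc, not_and_or, not_le, not_le] at ht
  rcases ht with h | h
  · exact h0 t h
  · exact h1 t h

private lemma profA_vol_nonneg {m : ℕ} (S : Set (Fin m → ℝ)) : 0 ≤ vol S :=
  ENNReal.toReal_nonneg

private lemma profA_vol_empty {m : ℕ} : vol (∅ : Set (Fin m → ℝ)) = 0 := by
  simp [vol]

/-- Sections of a corner above the largest height are empty. -/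
private lemma profA_sec_above {T : ℝ} (hTmax : ∀ x ∈ K, x 0 ≤ T) {t : ℝ} (ht : T < t) :
    sec K t = ∅ := by
  rw [eq_empty_iff_forall_notMem]
  intro y hy
  have h := hTmax _ (mem_sec.1 hy)
  rw [Fin.cons_zero] at h
  exact absurd h (not_le.mpr ht)

private lemma profA_const (S : Set (Fin n → ℝ)) (c : ℝ) : ∫ _ in S, c = c * vol S := by
  rw [setIntegral_const, smul_eq_mul, mul_comm]
  rfl

theorem profile_antitone (hK : Corner K) (T : ℝ) :
    AntitoneOn (fun t => vol (sec K t)) (Icc 0 T) := by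
  intro s hs t _ hst
  exact ENNReal.toReal_mono (isCompact_sec hK.1 s).measure_lt_top.ne
    (measure_mono (corner_sec_anti hK hs.1 hst))

theorem profile_intervalIntegrable (hK : Corner K) (a b : ℝ) :
    IntervalIntegrable (fun t => vol (sec K t)) volume a b := by
  obtain ⟨M, hM⟩ := vol_sec_bounded hK.1
  refine profA_ii _ (measurable_vol_sec hK.1) M (fun t => ?_) a b
  rw [abs_of_nonneg (profA_vol_nonneg _)]
  exact hM t

theorem profile_sq_intervalIntegrable (hK : Corner K) (a b : ℝ) :
    IntervalIntegrable (fun t => vol (sec K t) ^ 2) volume a b := by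
  obtain ⟨M, hM⟩ := vol_sec_bounded hK.1
  refine profA_ii _ ((measurable_vol_sec hK.1).pow_const 2) (M ^ 2) (fun t => ?_) a b
  rw [abs_of_nonneg (sq_nonneg _)]
  exact pow_le_pow_left₀ (profA_vol_nonneg _) (hM t) 2

theorem secMoment_nonneg (hK : Corner K) (j : Fin n) (t : ℝ) :
    0 ≤ ∫ w in sec K t, w j :=
  setIntegral_nonneg (isCompact_sec hK.1 t).measurableSet
    (fun w hw => (corner_sec hK t).2.2.1 w hw j)

theorem secMoment_le (hK : Corner K) :
    ∃ c : ℝ, 0 ≤ c ∧ ∀ (j : Fin n) (t : ℝ), ∫ w in sec K t, w j ≤ c * vol (sec K t) := by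
  obtain ⟨r, hr⟩ := hK.1.isBounded.subset_closedBall (0 : Fin (n+1) → ℝ)
  refine ⟨|r|, abs_nonneg r, fun j t => ?_⟩
  have hS := isCompact_sec hK.1 t
  have hle : ∀ w ∈ sec K t, w j ≤ |r| := by
    intro w hw
    have h0 := hr (mem_sec.1 hw)
    rw [mem_closedBall_zero_iff] at h0
    have h1 := norm_le_pi_norm (Fin.cons t w : Fin (n+1) → ℝ) j.succ
    rw [Fin.cons_succ, Real.norm_eq_abs] at h1
    exact le_trans (le_abs_self _) (le_trans h1 (le_trans h0 (le_abs_self r)))
  have hmono : ∫ w in sec K t, w j ≤ ∫ _ in sec K t, |r| :=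
    setIntegral_mono_on ((continuous_apply j).continuousOn.integrableOn_compact hS)
      (integrableOn_const hS.measure_lt_top.ne) hS.measurableSet hle
  rw [profA_const] at hmono
  exact hmono

theorem secMoment_intervalIntegrable (hK : Corner K) (j : Fin n) (a b : ℝ) :
    IntervalIntegrable (fun t => ∫ w in sec K t, w j) volume a b := by
  obtain ⟨M, hM⟩ := vol_sec_bounded hK.1
  obtain ⟨c, hc0, hc⟩ := secMoment_le hK
  have hmeas : Measurable (fun t => ∫ w in sec K t, w j) := by
    have h := measurable_slice hK.1 (fun x : Fin (n+1) → ℝ => x j.succ) (continuous_apply _)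
    simp only [Fin.cons_succ] at h
    exact h
  refine profA_ii _ hmeas (c * M) (fun t => ?_) a b
  rw [abs_of_nonneg (secMoment_nonneg hK j t)]
  exact le_trans (hc j t) (mul_le_mul_of_nonneg_left (hM t) hc0)

theorem vol_eq_profile (hK : Corner K) {T : ℝ} (hT : 0 ≤ T) (hTmax : ∀ x ∈ K, x 0 ≤ T) :
    vol K = ∫ t in (0:ℝ)..T, vol (sec K t) := by
  rw [vol_slice hK.1]
  refine profA_int _ hT (fun t ht => ?_) (fun t ht => ?_)
  · rw [corner_sec_neg hK ht, profA_vol_empty]
  · rw [profA_sec_above hTmax ht, profA_vol_empty]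

theorem moment_zero_eq_profile (hK : Corner K) {T : ℝ} (hT : 0 ≤ T)
    (hTmax : ∀ x ∈ K, x 0 ≤ T) :
    ∫ x in K, x 0 = ∫ t in (0:ℝ)..T, t * vol (sec K t) := by
  rw [integral_slice hK.1 (fun x => x 0) (continuous_apply 0)]
  have e : (fun t : ℝ => ∫ y in sec K t, (Fin.cons t y : Fin (n+1) → ℝ) 0)
      = fun t : ℝ => t * vol (sec K t) := by
    funext t
    simp only [Fin.cons_zero]
    exact profA_const _ t
  rw [e]
  refine profA_int _ hT (fun t ht => ?_) (fun t ht => ?_)
  · rw [corner_sec_neg hK ht, profA_vol_empty, mul_zero]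
  · rw [profA_sec_above hTmax ht, profA_vol_empty, mul_zero]

theorem moment_succ_eq_profile (hK : Corner K) {T : ℝ} (hT : 0 ≤ T)
    (hTmax : ∀ x ∈ K, x 0 ≤ T) (j : Fin n) :
    ∫ x in K, x j.succ = ∫ t in (0:ℝ)..T, ∫ w in sec K t, w j := by
  rw [integral_slice hK.1 (fun x => x j.succ) (continuous_apply _)]
  simp only [Fin.cons_succ]
  refine profA_int _ hT (fun t ht => ?_) (fun t ht => ?_)
  · rw [corner_sec_neg hK ht, Measure.restrict_empty, integral_zero_measure]
  · rw [profA_sec_above hTmax ht, Measure.restrict_empty, integral_zero_measure]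

end Vale.Agent.Lib.P254
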