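import Vale.Agent.Lib.P254.PWJ.Homothety
import Vale.Agent.Lib.P254.PWJ.ProfileA

/-!
# P254, route (h76-6): the section profile of a corner in `ℝ³`
(concavity of the square root, positivity, continuity)
-/

open MeasureTheory Set

namespace Vale.Agent.Lib.P254

variable {K : Set (Fin 3 → ℝ)}

/-- The origin lies in every section of a corner at a height between `0` and `T`. -/
private lemma profB_sec_nonempty (hK : Corner K) {T : ℝ}
    (hTmem : (![T, 0, 0] : Fin 3 → ℝ) ∈ K) {s : ℝ} (hs : s ∈ Icc 0 T) :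
    (sec K s).Nonempty := by
  refine ⟨0, ?_⟩
  rw [mem_sec]
  refine hK.2.2.2 _ hTmem _ ?_ ?_
  · intro i
    refine Fin.cases ?_ ?_ i
    · rw [Fin.cons_zero]
      exact hs.1
    · intro j
      rw [Fin.cons_succ]
      exact le_rfl
  · intro i
    refine Fin.cases ?_ ?_ i
    · rw [Fin.cons_zero]
      exact hs.2
    · intro j
      rw [Fin.cons_succ]
      fin_cases j
      · exact le_rfl
      · exact le_rfl

theorem profile_sqrt_concave (hK : Corner K) {T : ℝ}
    (hTmem : (![T, 0, 0] : Fin 3 → ℝ) ∈ K) :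
    ConcaveOn ℝ (Icc 0 T) (fun t => Real.sqrt (vol (sec K t))) := by
  refine ⟨convex_Icc 0 T, ?_⟩
  intro s hs t ht a b ha hb hab
  have h := sec_sqrt_concave hK.1 hK.2.1 ha hb hab (profB_sec_nonempty hK hTmem hs)
    (profB_sec_nonempty hK hTmem ht)
  simp only [smul_eq_mul]
  exact h

theorem profile_pos (hK : Corner K) {T : ℝ} (hTmem : (![T, 0, 0] : Fin 3 → ℝ) ∈ K)
    (h0 : 0 < vol (sec K 0)) : ∀ t ∈ Ico 0 T, 0 < vol (sec K t) := by
  intro t ht
  have hp0 : (![T, 0, 0] : Fin 3 → ℝ) 0 = T := rfl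
  have h := sec_homothety hK.1 hK.2.1 hTmem (s := 0) (t := t) ht.1 (by rw [hp0]; exact ht.2.le)
  rw [hp0, sub_zero] at h
  have hpos : 0 < vol (sec K 0) * (T - t) ^ 2 := by
    have h1 : 0 < T - t := sub_pos.2 ht.2
    positivity
  by_contra hcon
  have hle : vol (sec K t) ≤ 0 := not_lt.1 hcon
  have h2 : vol (sec K t) * T ^ 2 ≤ 0 := mul_nonpos_of_nonpos_of_nonneg hle (sq_nonneg T)
  linarith

theorem profile_continuousOn (hK : Corner K) {T : ℝ}
    (hTmem : (![T, 0, 0] : Fin 3 → ℝ) ∈ K) :
    ContinuousOn (fun t => vol (sec K t)) (Ioo 0 T) := by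
  have h1 : ContinuousOn (fun t => Real.sqrt (vol (sec K t))) (Ioo 0 T) := by
    have h := (profile_sqrt_concave hK hTmem).continuousOn_interior
    rwa [interior_Icc] at h
  have h2 : (fun t => vol (sec K t)) = fun t => Real.sqrt (vol (sec K t)) ^ 2 := by
    funext t
    rw [Real.sq_sqrt]
    exact ENNReal.toReal_nonneg
  rw [h2]
  exact h1.pow 2

/-- Monotone comparison of the section moments of a corner at two nonnegative heights. -/
private lemma profB_moment_diff (hK : Corner K) (j : Fin 2) {c : ℝ}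
    (hc : ∀ x ∈ K, x j.succ ≤ c) {s t : ℝ} (hs : 0 ≤ s) (hst : s ≤ t) :
    0 ≤ (∫ w in sec K s, w j) - (∫ w in sec K t, w j) ∧
      (∫ w in sec K s, w j) - (∫ w in sec K t, w j) ≤ c * (vol (sec K s) - vol (sec K t)) := by
  have hsub : sec K t ⊆ sec K s := corner_sec_anti hK hs hst
  have hcs : IsCompact (sec K s) := isCompact_sec hK.1 s
  have hct : IsCompact (sec K t) := isCompact_sec hK.1 t
  have hint : IntegrableOn (fun w : Fin 2 → ℝ => w j) (sec K s) volume :=
    (continuous_apply j).continuousOn.integrableOn_compact hcs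
  have hmd : MeasurableSet (sec K s \ sec K t) := hcs.measurableSet.diff hct.measurableSet
  have hdiff : ∫ w in sec K s \ sec K t, w j
      = (∫ w in sec K s, w j) - (∫ w in sec K t, w j) :=
    setIntegral_sdiff hct.measurableSet hint hsub
  have hvol : volume.real (sec K s \ sec K t) = vol (sec K s) - vol (sec K t) :=
    measureReal_sdiff hsub hct.measurableSet hcs.measure_lt_top.ne
  have hnn : ∀ w ∈ sec K s \ sec K t, 0 ≤ w j := by
    intro w hw
    have h := hK.2.2.1 (Fin.cons s w) (mem_sec.1 hw.1) j.succ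
    rw [Fin.cons_succ] at h
    exact h
  have hle : ∀ w ∈ sec K s \ sec K t, w j ≤ c := by
    intro w hw
    have h := hc (Fin.cons s w) (mem_sec.1 hw.1)
    rw [Fin.cons_succ] at h
    exact h
  rw [← hdiff, ← hvol]
  refine ⟨setIntegral_nonneg hmd hnn, ?_⟩
  have hfin : volume (sec K s \ sec K t) ≠ ⊤ :=
    (lt_of_le_of_lt (measure_mono sdiff_subset) hcs.measure_lt_top).ne
  have hmono : ∫ w in sec K s \ sec K t, w j ≤ ∫ _w in sec K s \ sec K t, c :=
    setIntegral_mono_on (hint.mono_set sdiff_subset) (integrableOn_const hfin) hmd hle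
  rw [setIntegral_const, smul_eq_mul, mul_comm] at hmono
  exact hmono

theorem secMoment_antitone (hK : Corner K) (j : Fin 2) (T : ℝ) :
    AntitoneOn (fun t => ∫ w in sec K t, w j) (Icc 0 T) := by
  obtain ⟨c, hcub⟩ := (hK.1.image (continuous_apply j.succ)).bddAbove
  have hc : ∀ x ∈ K, x j.succ ≤ c := fun x hx => hcub ⟨x, hx, rfl⟩
  intro s hs t _ht hst
  exact sub_nonneg.1 (profB_moment_diff hK j hc hs.1 hst).1

theorem secMoment_continuousOn (hK : Corner K) {T : ℝ}
    (hTmem : (![T, 0, 0] : Fin 3 → ℝ) ∈ K) (j : Fin 2) :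
    ContinuousOn (fun t => ∫ w in sec K t, w j) (Ioo 0 T) := by
  obtain ⟨c, hcub⟩ := (hK.1.image (continuous_apply j.succ)).bddAbove
  have hc : ∀ x ∈ K, x j.succ ≤ c := fun x hx => hcub ⟨x, hx, rfl⟩
  have hv := profile_continuousOn hK hTmem
  have hkey : ∀ x ∈ Ioo 0 T, ∀ y ∈ Ioo 0 T,
      |(∫ w in sec K x, w j) - (∫ w in sec K y, w j)|
        ≤ c * |vol (sec K x) - vol (sec K y)| := by
    intro x hx y hy
    rcases le_total x y with hxy | hyx
    · obtain ⟨h1, h2⟩ := profB_moment_diff hK j hc hx.1.le hxy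
      have hvnn : 0 ≤ vol (sec K x) - vol (sec K y) := by
        have hsub : sec K y ⊆ sec K x := corner_sec_anti hK hx.1.le hxy
        have := ENNReal.toReal_mono ((isCompact_sec hK.1 x).measure_lt_top (μ := volume)).ne (measure_mono hsub)
        exact sub_nonneg.2 this
      rw [abs_of_nonneg h1, abs_of_nonneg hvnn]
      exact h2
    · obtain ⟨h1, h2⟩ := profB_moment_diff hK j hc hy.1.le hyx
      have hvnn : 0 ≤ vol (sec K y) - vol (sec K x) := by
        have hsub : sec K x ⊆ sec K y := corner_sec_anti hK hy.1.le hyx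
        have := ENNReal.toReal_mono ((isCompact_sec hK.1 y).measure_lt_top (μ := volume)).ne (measure_mono hsub)
        exact sub_nonneg.2 this
      rw [abs_sub_comm, abs_of_nonneg h1, abs_sub_comm, abs_of_nonneg hvnn]
      exact h2
  intro y hy
  have hvy : ContinuousWithinAt (fun t => vol (sec K t)) (Ioo 0 T) y := hv y hy
  have hlim : Filter.Tendsto (fun x => c * |vol (sec K x) - vol (sec K y)|)
      (nhdsWithin y (Ioo 0 T)) (nhds 0) := by
    have h1 : Filter.Tendsto (fun x => vol (sec K x) - vol (sec K y))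
        (nhdsWithin y (Ioo 0 T)) (nhds (vol (sec K y) - vol (sec K y))) :=
      hvy.tendsto.sub tendsto_const_nhds
    rw [sub_self] at h1
    have h2 := (h1.abs).const_mul c
    rw [abs_zero, mul_zero] at h2
    exact h2
  have hsq : Filter.Tendsto (fun x => |(∫ w in sec K x, w j) - (∫ w in sec K y, w j)|)
      (nhdsWithin y (Ioo 0 T)) (nhds 0) := by
    refine squeeze_zero' (Filter.Eventually.of_forall fun x => abs_nonneg _) ?_ hlim
    filter_upwards [self_mem_nhdsWithin] with x hx
    exact hkey x hx y hy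
  have hfin : Filter.Tendsto (fun x => (∫ w in sec K x, w j) - (∫ w in sec K y, w j))
      (nhdsWithin y (Ioo 0 T)) (nhds 0) :=
    (tendsto_zero_iff_abs_tendsto_zero _).2 hsq
  have hadd := hfin.add_const (∫ w in sec K y, w j)
  rw [zero_add] at hadd
  have heq : (fun x => (∫ w in sec K x, w j) - (∫ w in sec K y, w j) + ∫ w in sec K y, w j)
      = fun x => ∫ w in sec K x, w j := by
    funext x
    ring
  rw [heq] at hadd
  exact hadd

end Vale.Agent.Lib.P254
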