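import Mathlib

/-!
# P254, route PWJ: integration of the tail inequality (abstract one-dimensional form)

`v` is the section area of a convex corner, `B1`, `B2` the first moments of its sections, all
as functions of the height.  If the pointwise inequality (PWJ) holds for every tail body, that is

`4 ((B1 A2 + A1 B2) N - A1 A2 v) ≤ v² N²`  with  `N = ∫_z^H v`, `A_i = ∫_z^H B_i`,

then `4 (∫ B1)(∫ B2) ≤ (∫ v²)(∫ v)`.  The functions are only assumed monotone: the proof uses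
right derivatives at every point (right limits of monotone functions) and the one-sided form of
the fundamental theorem of calculus.
-/

open MeasureTheory Set Filter Topology

namespace Vale.Agent.Lib.P254.PWJ

private lemma tail_cont {f : ℝ → ℝ} (hf : Antitone f) (H : ℝ) :
    Continuous (fun z => ∫ t in z..H, f t) := by
  have h : (fun z => ∫ t in z..H, f t) = fun z => -∫ t in H..z, f t := by
    funext z; exact intervalIntegral.integral_symm H z
  rw [h]
  exact (intervalIntegral.continuous_primitive (fun a b => hf.intervalIntegrable) H).neg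

private lemma tail_deriv {f : ℝ → ℝ} (hf : Antitone f) (H x : ℝ) :
    HasDerivWithinAt (fun z => ∫ t in z..H, f t) (-(Function.rightLim f x)) (Ioi x) x := by
  have h := intervalIntegral.integral_hasDerivWithinAt_of_tendsto_ae_left (a := x) (b := H)
    (f := f) (s := Ici x) (t := Ioi x) (c := Function.rightLim f x) hf.intervalIntegrable
    (hf.measurable.stronglyMeasurable.stronglyMeasurableAtFilter)
    ((hf.tendsto_rightLim x).mono_left inf_le_left)
  exact h.mono Ioi_subset_Ici_self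

/-- Integration of the tail inequality, for globally antitone data. -/
theorem tail_integrate_anti (H : ℝ) (hH : 0 < H) (v B1 B2 : ℝ → ℝ)
    (hv : Antitone v) (hB1 : Antitone B1) (hB2 : Antitone B2)
    (hvpos : ∀ z ∈ Ico 0 H, 0 < v z) (hvH : 0 ≤ v H)
    (hB2nn : ∀ z ∈ Icc 0 H, 0 ≤ B2 z)
    (M : ℝ) (hB1M : ∀ z ∈ Icc 0 H, B1 z ≤ M * v z)
    (hpwj : ∀ z ∈ Ico 0 H,
      4 * ((B1 z * (∫ t in z..H, B2 t) + (∫ t in z..H, B1 t) * B2 z) * (∫ t in z..H, v t)
        - (∫ t in z..H, B1 t) * (∫ t in z..H, B2 t) * v z) ≤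
        v z ^ 2 * (∫ t in z..H, v t) ^ 2) :
    4 * (∫ t in (0:ℝ)..H, B1 t) * (∫ t in (0:ℝ)..H, B2 t) ≤
      (∫ t in (0:ℝ)..H, v t ^ 2) * (∫ t in (0:ℝ)..H, v t) := by
  set N : ℝ → ℝ := fun z => ∫ t in z..H, v t with hNdef
  set A1 : ℝ → ℝ := fun z => ∫ t in z..H, B1 t with hA1def
  set A2 : ℝ → ℝ := fun z => ∫ t in z..H, B2 t with hA2def
  have hNc : Continuous N := tail_cont hv H
  have hA1c : Continuous A1 := tail_cont hB1 H
  have hA2c : Continuous A2 := tail_cont hB2 H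
  have hNpos : ∀ z ∈ Ico 0 H, 0 < N z := by
    intro z hz
    exact intervalIntegral.intervalIntegral_pos_of_pos_on hv.intervalIntegrable
      (fun x hx => hvpos x ⟨le_trans hz.1 hx.1.le, hx.2⟩) hz.2
  have hA2nn : ∀ z ∈ Icc 0 H, 0 ≤ A2 z := by
    intro z hz
    exact intervalIntegral.integral_nonneg hz.2
      (fun x hx => hB2nn x ⟨le_trans hz.1 hx.1, hx.2⟩)
  have hA1M : ∀ z ∈ Icc 0 H, A1 z ≤ M * N z := by
    intro z hz
    have hi1 : IntervalIntegrable B1 volume z H := hB1.intervalIntegrable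
    have hi2 : IntervalIntegrable v volume z H := hv.intervalIntegrable
    have h := intervalIntegral.integral_mono_on hz.2 hi1
      (hi2.const_mul M) (fun x hx => hB1M x ⟨le_trans hz.1 hx.1, hx.2⟩)
    rw [intervalIntegral.integral_const_mul] at h
    exact h
  have hvnn : ∀ z ∈ Icc 0 H, 0 ≤ v z := fun z hz => le_trans hvH (hv hz.2)
  have hv2anti : AntitoneOn (fun z => v z ^ 2) (Icc 0 H) := by
    intro a _ b hb hab
    exact pow_le_pow_left₀ (hvnn b hb) (hv hab) 2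
  have hv2int : IntegrableOn (fun z => v z ^ 2) (Icc 0 H) :=
    hv2anti.integrableOn_isCompact isCompact_Icc
  have hv2ii : ∀ a ∈ Icc 0 H, ∀ b ∈ Icc 0 H, a ≤ b →
      IntervalIntegrable (fun z => v z ^ 2) volume a b := by
    intro a ha b hb hab
    rw [intervalIntegrable_iff_integrableOn_Icc_of_le hab]
    exact hv2int.mono_set (Icc_subset_Icc ha.1 hb.2)
  set Φ : ℝ → ℝ := fun z => 4 * (A1 z * A2 z) / N z with hΦdef
  set g' : ℝ → ℝ := fun x =>
    ((4 * ((-(Function.rightLim B1 x)) * A2 x + A1 x * (-(Function.rightLim B2 x)))) * N x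
      - 4 * (A1 x * A2 x) * (-(Function.rightLim v x))) / N x ^ 2 with hg'def
  have key : ∀ z1 ∈ Ioo 0 H, Φ 0 ≤ Φ z1 + ∫ t in (0:ℝ)..z1, v t ^ 2 := by
    intro z1 hz1
    have hcont : ContinuousOn Φ (Icc 0 z1) := by
      apply ContinuousOn.div
      · exact (continuous_const.mul (hA1c.mul hA2c)).continuousOn
      · exact hNc.continuousOn
      · intro z hz
        exact (hNpos z ⟨hz.1, lt_of_le_of_lt hz.2 hz1.2⟩).ne'
    have hderiv : ∀ x ∈ Ioo 0 z1, HasDerivWithinAt Φ (g' x) (Ioi x) x := by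
      intro x hx
      have hxH : x < H := lt_trans hx.2 hz1.2
      have h1 := tail_deriv hB1 H x
      have h2 := tail_deriv hB2 H x
      have h3 := tail_deriv hv H x
      have hne : N x ≠ 0 := (hNpos x ⟨hx.1.le, hxH⟩).ne'
      exact ((h1.mul h2).const_mul 4).div h3 hne
    have hφint : IntegrableOn (fun z => -(v z ^ 2)) (Icc 0 z1) :=
      (hv2int.mono_set (Icc_subset_Icc le_rfl hz1.2.le)).neg
    have hbound : ∀ x ∈ Ioo 0 z1, -(v x ^ 2) ≤ g' x := by
      intro x hx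
      have hxH : x < H := lt_trans hx.2 hz1.2
      have hNx : 0 < N x := hNpos x ⟨hx.1.le, hxH⟩
      have hev : ∀ᶠ z in 𝓝[>] x, z ∈ Ioo x H := Ioo_mem_nhdsGT hxH
      have hw0 : 0 ≤ Function.rightLim v x := by
        refine ge_of_tendsto (hv.tendsto_rightLim x) ?_
        filter_upwards [hev] with z hz using (hvpos z ⟨by linarith [hz.1, hx.1], hz.2⟩).le
      have hwv : Function.rightLim v x ≤ v x := hv.rightLim_le le_rfl
      have hA1t : Tendsto A1 (𝓝[>] x) (𝓝 (A1 x)) :=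
        (hA1c.tendsto x).mono_left nhdsWithin_le_nhds
      have hA2t : Tendsto A2 (𝓝[>] x) (𝓝 (A2 x)) :=
        (hA2c.tendsto x).mono_left nhdsWithin_le_nhds
      have hNt : Tendsto N (𝓝[>] x) (𝓝 (N x)) := (hNc.tendsto x).mono_left nhdsWithin_le_nhds
      have hL : 4 * ((Function.rightLim B1 x * A2 x + A1 x * Function.rightLim B2 x) * N x
          - A1 x * A2 x * Function.rightLim v x) ≤ Function.rightLim v x ^ 2 * N x ^ 2 := by
        have hF : Tendsto
            (fun z => 4 * ((B1 z * A2 z + A1 z * B2 z) * N z - A1 z * A2 z * v z))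
            (𝓝[>] x)
            (𝓝 (4 * ((Function.rightLim B1 x * A2 x + A1 x * Function.rightLim B2 x) * N x
              - A1 x * A2 x * Function.rightLim v x))) :=
          (((((hB1.tendsto_rightLim x).mul hA2t).add
            (hA1t.mul (hB2.tendsto_rightLim x))).mul hNt).sub
              ((hA1t.mul hA2t).mul (hv.tendsto_rightLim x))).const_mul 4
        have hR : Tendsto (fun z => v z ^ 2 * N z ^ 2) (𝓝[>] x)
            (𝓝 (Function.rightLim v x ^ 2 * N x ^ 2)) :=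
          ((hv.tendsto_rightLim x).pow 2).mul (hNt.pow 2)
        refine le_of_tendsto_of_tendsto hF hR ?_
        filter_upwards [hev] with z hz using hpwj z ⟨by linarith [hz.1, hx.1], hz.2⟩
      have hw2 : Function.rightLim v x ^ 2 ≤ v x ^ 2 := pow_le_pow_left₀ hw0 hwv 2
      have hN2 : 0 < N x ^ 2 := by positivity
      rw [hg'def]
      simp only
      rw [le_div_iff₀ hN2]
      nlinarith [hL, hw2, hN2, mul_le_mul_of_nonneg_right hw2 hN2.le]
    have h := intervalIntegral.integral_le_sub_of_hasDeriv_right_of_le hz1.1.le hcont hderiv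
      hφint hbound
    rw [intervalIntegral.integral_neg] at h
    linarith
  have key2 : ∀ z1 ∈ Ioo 0 H,
      Φ 0 ≤ 4 * M * A2 z1 + ∫ t in (0:ℝ)..H, v t ^ 2 := by
    intro z1 hz1
    have hz1' : z1 ∈ Icc 0 H := ⟨hz1.1.le, hz1.2.le⟩
    have h1 := key z1 hz1
    have hN1 : 0 < N z1 := hNpos z1 ⟨hz1.1.le, hz1.2⟩
    have h2 : Φ z1 ≤ 4 * M * A2 z1 := by
      rw [hΦdef]
      simp only
      rw [div_le_iff₀ hN1]
      nlinarith [mul_le_mul_of_nonneg_right (hA1M z1 hz1') (hA2nn z1 hz1')]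
    have h3 : ∫ t in (0:ℝ)..z1, v t ^ 2 ≤ ∫ t in (0:ℝ)..H, v t ^ 2 := by
      have hsplit := intervalIntegral.integral_add_adjacent_intervals
        (hv2ii 0 ⟨le_rfl, hH.le⟩ z1 hz1' hz1.1.le) (hv2ii z1 hz1' H ⟨hH.le, le_rfl⟩ hz1.2.le)
      have hnn : 0 ≤ ∫ t in z1..H, v t ^ 2 :=
        intervalIntegral.integral_nonneg hz1.2.le (fun x _ => sq_nonneg (v x))
      linarith
    linarith
  have hlim : Tendsto (fun z1 => 4 * M * A2 z1 + ∫ t in (0:ℝ)..H, v t ^ 2) (𝓝[<] H)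
      (𝓝 (4 * M * A2 H + ∫ t in (0:ℝ)..H, v t ^ 2)) :=
    (((hA2c.tendsto H).mono_left nhdsWithin_le_nhds).const_mul (4 * M)).add_const _
  have hA2H : A2 H = 0 := intervalIntegral.integral_same
  have hfin : Φ 0 ≤ 4 * M * A2 H + ∫ t in (0:ℝ)..H, v t ^ 2 := by
    refine ge_of_tendsto hlim ?_
    filter_upwards [Ioo_mem_nhdsLT hH] with z1 hz1 using key2 z1 hz1
  rw [hA2H] at hfin
  have hN0 : 0 < N 0 := hNpos 0 ⟨le_rfl, hH⟩
  have hΦ0 : Φ 0 = 4 * (A1 0 * A2 0) / N 0 := rfl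
  rw [hΦ0, mul_zero, zero_add, div_le_iff₀ hN0] at hfin
  have e1 : A1 0 = ∫ t in (0:ℝ)..H, B1 t := rfl
  have e2 : A2 0 = ∫ t in (0:ℝ)..H, B2 t := rfl
  have e3 : N 0 = ∫ t in (0:ℝ)..H, v t := rfl
  rw [e1, e2, e3] at hfin
  linarith

private lemma clamp_mem (H : ℝ) (hH : 0 ≤ H) (z : ℝ) : max 0 (min z H) ∈ Icc 0 H :=
  ⟨le_max_left _ _, max_le hH (min_le_right _ _)⟩

private lemma clamp_id {H z : ℝ} (hz : z ∈ Icc 0 H) : max 0 (min z H) = z := by
  rw [min_eq_left hz.2, max_eq_right hz.1]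

private lemma clamp_anti {f : ℝ → ℝ} {H : ℝ} (hH : 0 ≤ H) (hf : AntitoneOn f (Icc 0 H)) :
    Antitone (fun z => f (max 0 (min z H))) := by
  intro a b hab
  exact hf (clamp_mem H hH a) (clamp_mem H hH b) (max_le_max le_rfl (min_le_min hab le_rfl))

private lemma clamp_int (f : ℝ → ℝ) {H z : ℝ} (hz : z ∈ Icc 0 H) :
    ∫ t in z..H, f (max 0 (min t H)) = ∫ t in z..H, f t := by
  apply intervalIntegral.integral_congr
  intro t ht
  rw [uIcc_of_le hz.2] at ht
  simp only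
  rw [clamp_id ⟨le_trans hz.1 ht.1, ht.2⟩]

/-- **Integration of the tail inequality.**  `v`, `B1`, `B2` nonincreasing on `[0,H]`, `v > 0` on
`[0,H)`, `B2 ≥ 0`, `B1 ≤ M v`.  If for every `z ∈ [0,H)` the tail quantities `N = ∫_z^H v`,
`A_i = ∫_z^H B_i` satisfy `4 ((B1 A2 + A1 B2) N - A1 A2 v) ≤ v² N²`, then
`4 (∫_0^H B1)(∫_0^H B2) ≤ (∫_0^H v²)(∫_0^H v)`. -/
theorem tail_integrate (H : ℝ) (hH : 0 < H) (v B1 B2 : ℝ → ℝ)
    (hv : AntitoneOn v (Icc 0 H)) (hB1 : AntitoneOn B1 (Icc 0 H))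
    (hB2 : AntitoneOn B2 (Icc 0 H))
    (hvpos : ∀ z ∈ Ico 0 H, 0 < v z) (hvH : 0 ≤ v H)
    (hB2nn : ∀ z ∈ Icc 0 H, 0 ≤ B2 z)
    (M : ℝ) (hB1M : ∀ z ∈ Icc 0 H, B1 z ≤ M * v z)
    (hpwj : ∀ z ∈ Ico 0 H,
      4 * ((B1 z * (∫ t in z..H, B2 t) + (∫ t in z..H, B1 t) * B2 z) * (∫ t in z..H, v t)
        - (∫ t in z..H, B1 t) * (∫ t in z..H, B2 t) * v z) ≤
        v z ^ 2 * (∫ t in z..H, v t) ^ 2) :
    4 * (∫ t in (0:ℝ)..H, B1 t) * (∫ t in (0:ℝ)..H, B2 t) ≤
      (∫ t in (0:ℝ)..H, v t ^ 2) * (∫ t in (0:ℝ)..H, v t) := by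
  have h0 : (0:ℝ) ∈ Icc 0 H := ⟨le_rfl, hH.le⟩
  have hHm : H ∈ Icc 0 H := ⟨hH.le, le_rfl⟩
  have key := tail_integrate_anti H hH (fun z => v (max 0 (min z H)))
    (fun z => B1 (max 0 (min z H))) (fun z => B2 (max 0 (min z H)))
    (clamp_anti hH.le hv) (clamp_anti hH.le hB1) (clamp_anti hH.le hB2)
    (by
      intro z hz
      rw [clamp_id ⟨hz.1, hz.2.le⟩]
      exact hvpos z hz)
    (by
      rw [clamp_id hHm]
      exact hvH)
    (by
      intro z hz
      rw [clamp_id hz]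
      exact hB2nn z hz)
    M
    (by
      intro z hz
      rw [clamp_id hz]
      exact hB1M z hz)
    (by
      intro z hz
      have hz' : z ∈ Icc 0 H := ⟨hz.1, hz.2.le⟩
      rw [clamp_int B1 hz', clamp_int B2 hz', clamp_int v hz', clamp_id hz']
      exact hpwj z hz)
  have e1 : ∫ t in (0:ℝ)..H, B1 (max 0 (min t H)) = ∫ t in (0:ℝ)..H, B1 t := clamp_int B1 h0
  have e2 : ∫ t in (0:ℝ)..H, B2 (max 0 (min t H)) = ∫ t in (0:ℝ)..H, B2 t := clamp_int B2 h0
  have e3 : ∫ t in (0:ℝ)..H, v (max 0 (min t H)) = ∫ t in (0:ℝ)..H, v t := clamp_int v h0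
  have e4 : ∫ t in (0:ℝ)..H, v (max 0 (min t H)) ^ 2 = ∫ t in (0:ℝ)..H, v t ^ 2 :=
    clamp_int (fun s => v s ^ 2) h0
  beta_reduce at key
  rw [e1, e2, e3, e4] at key
  exact key

end Vale.Agent.Lib.P254.PWJ
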