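import Vale.Agent.Lib.P254.PWJ.ProfileA

/-!
# P254, route (h76-6): tail bodies of a corner
-/

open MeasureTheory Set

namespace Vale.Agent.Lib.P254

variable {n : ℕ} {K : Set (Fin (n+1) → ℝ)}

/-- The shift of the coordinate `0` by `z` is continuous. -/
theorem tailSet_shift_continuous (n : ℕ) (z : ℝ) :
    Continuous (fun p : Fin (n+1) → ℝ => Function.update p 0 (p 0 + z)) :=
  continuous_id.update 0 ((continuous_apply 0).add continuous_const)

/-- The shift of the coordinate `0` commutes with convex combinations. -/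
theorem tailSet_shift_combo (p q : Fin (n+1) → ℝ) (a b z : ℝ) (hab : a + b = 1) :
    Function.update (a • p + b • q) 0 ((a • p + b • q) 0 + z)
      = a • Function.update p 0 (p 0 + z) + b • Function.update q 0 (q 0 + z) := by
  funext i
  by_cases hi : i = 0
  · subst hi
    simp only [Function.update_self, Pi.add_apply, Pi.smul_apply, smul_eq_mul]
    have : z = (a + b) * z := by rw [hab, one_mul]
    linear_combination this
  · simp only [Function.update_of_ne hi, Pi.add_apply, Pi.smul_apply, smul_eq_mul]

theorem corner_tailSet (hK : Corner K) {z : ℝ} (hz : 0 ≤ z) : Corner (tailSet K z) := by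
  obtain ⟨hcomp, hconv, hpos, hdown⟩ := hK
  have horth : ∀ p ∈ tailSet K z, ∀ i, 0 ≤ p i := by
    intro p hp i
    by_cases hi : i = 0
    · subst hi
      exact hp.1
    · have h := hpos _ hp.2 i
      rwa [Function.update_of_ne hi] at h
  have hsub : tailSet K z ⊆ K := by
    intro p hp
    refine hdown _ hp.2 p (horth p hp) (fun i => ?_)
    by_cases hi : i = 0
    · subst hi
      rw [Function.update_self]
      linarith
    · rw [Function.update_of_ne hi]
  have hclosed : IsClosed (tailSet K z) := by
    have h1 : IsClosed {p : Fin (n+1) → ℝ | 0 ≤ p 0} :=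
      isClosed_le continuous_const (continuous_apply 0)
    have h2 : IsClosed ((fun p : Fin (n+1) → ℝ => Function.update p 0 (p 0 + z)) ⁻¹' K) :=
      hcomp.isClosed.preimage (tailSet_shift_continuous n z)
    exact h1.inter h2
  refine ⟨hcomp.of_isClosed_subset hclosed hsub, ?_, horth, ?_⟩
  · intro p hp q hq a b ha hb hab
    refine ⟨?_, ?_⟩
    · have h1 := hp.1
      have h2 := hq.1
      simp only [Pi.add_apply, Pi.smul_apply, smul_eq_mul]
      positivity
    · rw [tailSet_shift_combo p q a b z hab]
      exact hconv hp.2 hq.2 ha hb hab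
  · intro p hp y hy hyp
    refine ⟨hy 0, ?_⟩
    refine hdown _ hp.2 _ (fun i => ?_) (fun i => ?_)
    · by_cases hi : i = 0
      · subst hi
        rw [Function.update_self]
        have := hy 0
        linarith
      · rw [Function.update_of_ne hi]
        exact hy i
    · by_cases hi : i = 0
      · subst hi
        rw [Function.update_self, Function.update_self]
        have := hyp 0
        linarith
      · rw [Function.update_of_ne hi, Function.update_of_ne hi]
        exact hyp i

theorem sec_tailSet (K : Set (Fin (n+1) → ℝ)) (z : ℝ) {s : ℝ} (hs : 0 ≤ s) :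
    sec (tailSet K z) s = sec K (s + z) := by
  ext y
  change (0 ≤ (Fin.cons s y : Fin (n+1) → ℝ) 0 ∧
      Function.update (Fin.cons s y : Fin (n+1) → ℝ) 0
        ((Fin.cons s y : Fin (n+1) → ℝ) 0 + z) ∈ K) ↔ (Fin.cons (s + z) y : Fin (n+1) → ℝ) ∈ K
  rw [Fin.cons_zero, Fin.update_cons_zero]
  exact ⟨fun h => h.2, fun h => ⟨hs, h⟩⟩

/-- The extent of the tail body along the coordinate `0`. -/
theorem tailSet_extent {T z : ℝ} (hTmax : ∀ x ∈ K, x 0 ≤ T) :
    ∀ x ∈ tailSet K z, x 0 ≤ T - z := by
  intro x hx
  have h := hTmax _ hx.2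
  rw [Function.update_self] at h
  linarith

theorem vol_tailSet (hK : Corner K) {T z : ℝ} (hTmax : ∀ x ∈ K, x 0 ≤ T) (hz : 0 ≤ z)
    (hzT : z ≤ T) : vol (tailSet K z) = ∫ t in z..T, vol (sec K t) := by
  have hT : 0 ≤ T - z := sub_nonneg.mpr hzT
  rw [vol_eq_profile (corner_tailSet hK hz) hT (tailSet_extent hTmax)]
  have hcongr : ∫ t in (0:ℝ)..(T - z), vol (sec (tailSet K z) t)
      = ∫ t in (0:ℝ)..(T - z), vol (sec K (t + z)) := by
    refine intervalIntegral.integral_congr (fun t ht => ?_)
    rw [uIcc_of_le hT] at ht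
    rw [sec_tailSet K z ht.1]
  rw [hcongr, intervalIntegral.integral_comp_add_right (fun t => vol (sec K t)) z, zero_add,
    sub_add_cancel]

theorem moment_tailSet (hK : Corner K) {T z : ℝ} (hTmax : ∀ x ∈ K, x 0 ≤ T) (hz : 0 ≤ z)
    (hzT : z ≤ T) (j : Fin n) :
    ∫ x in tailSet K z, x j.succ = ∫ t in z..T, ∫ w in sec K t, w j := by
  have hT : 0 ≤ T - z := sub_nonneg.mpr hzT
  rw [moment_succ_eq_profile (corner_tailSet hK hz) hT (tailSet_extent hTmax) j]
  have hcongr : ∫ t in (0:ℝ)..(T - z), ∫ w in sec (tailSet K z) t, w j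
      = ∫ t in (0:ℝ)..(T - z), ∫ w in sec K (t + z), w j := by
    refine intervalIntegral.integral_congr (fun t ht => ?_)
    rw [uIcc_of_le hT] at ht
    rw [sec_tailSet K z ht.1]
  rw [hcongr, intervalIntegral.integral_comp_add_right (fun t => ∫ w in sec K t, w j) z,
    zero_add, sub_add_cancel]

end Vale.Agent.Lib.P254
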