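import Vale.Agent.Lib.P254.PWJ.Corner3
import Vale.Agent.Lib.P254.PWJ.TailSet
import Vale.Agent.Lib.P254.PWJ.ProfileB
import Vale.Agent.Lib.P254.PWJ.TailInt

/-!
# P254, route (h76-6): the centroid inequality for convex corners in `ℝ³`

`|K| ≥ 8 b_1 b_2 b_3` for a convex corner `K ⊆ ℝ³` with centroid `b`, in the form
`8 (∫_K x 0)(∫_K x 1)(∫_K x 2) ≤ |K|⁴`: the inequality (PWJ) for every tail body, integrated
along the coordinate `0`, and the one-dimensional inequality J1 for the section profile.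
-/

open MeasureTheory Set

namespace Vale.Agent.Lib.P254

theorem corner_I2_pwj (K : Set (Fin 3 → ℝ)) (hK : Corner K) :
    8 * ((∫ x in K, x 0) * (∫ x in K, x 1) * (∫ x in K, x 2)) ≤ (vol K) ^ 4 := by
  rcases K.eq_empty_or_nonempty with hemp | hne
  · subst hemp
    simp [vol]
  obtain ⟨T, hT0, hTmem, hTmax⟩ := corner_extent hK hne
  set v : ℝ → ℝ := fun t => vol (sec K t) with hv
  set B : Fin 2 → ℝ → ℝ := fun j t => ∫ w in sec K t, w j with hB
  have hVol : vol K = ∫ t in (0:ℝ)..T, v t := vol_eq_profile hK hT0 hTmax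
  have hX0 : ∫ x in K, x 0 = ∫ t in (0:ℝ)..T, t * v t := moment_zero_eq_profile hK hT0 hTmax
  have hX1 : ∫ x in K, x 1 = ∫ t in (0:ℝ)..T, B 0 t :=
    moment_succ_eq_profile hK hT0 hTmax (0 : Fin 2)
  have hX2 : ∫ x in K, x 2 = ∫ t in (0:ℝ)..T, B 1 t :=
    moment_succ_eq_profile hK hT0 hTmax (1 : Fin 2)
  have hvnn : ∀ t, 0 ≤ v t := fun t => ENNReal.toReal_nonneg
  have hanti : AntitoneOn v (Icc 0 T) := profile_antitone hK T
  have hJ := j1_interval T hT0 v (fun t _ => hvnn t) hanti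
    (fun x y r _ hxy hr _ => sec_vol_four_point hK.1 hK.2.1 x y r hxy hr)
  have hV0 : 0 ≤ vol K := ENNReal.toReal_nonneg
  have hZ0 : 0 ≤ ∫ t in (0:ℝ)..T, t * v t :=
    intervalIntegral.integral_nonneg hT0 (fun t ht => mul_nonneg ht.1 (hvnn t))
  have hV4 : 0 ≤ (vol K) ^ 4 := by positivity
  rcases hT0.eq_or_lt with hTz | hTpos
  · -- flat corner
    have e : ∫ x in K, x 0 = 0 := by
      rw [hX0, ← hTz]
      simp
    rw [e]
    simpa using hV4
  have h00 : 0 ≤ v 0 := hvnn 0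
  rcases h00.eq_or_lt with hv0 | hv0
  · -- null bottom facet
    have hz : ∀ t ∈ Icc (0:ℝ) T, v t = 0 := by
      intro t ht
      have h1 : v t ≤ v 0 := hanti ⟨le_rfl, hT0⟩ ht ht.1
      exact le_antisymm (by rw [← hv0] at h1; exact h1) (hvnn t)
    have e : ∫ x in K, x 0 = 0 := by
      rw [hX0]
      have : ∀ t ∈ Set.uIcc (0:ℝ) T, t * v t = 0 := by
        intro t ht
        rw [Set.uIcc_of_le hT0] at ht
        rw [hz t ht, mul_zero]
      rw [intervalIntegral.integral_congr this]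
      simp
    rw [e]
    simpa using hV4
  -- main case
  have hTK : (![T, 0, 0] : Fin 3 → ℝ) ∈ K := by
    have e : (![T, 0, 0] : Fin 3 → ℝ) = Fin.cons T 0 := by
      ext i
      fin_cases i <;> rfl
    rw [e]
    exact hTmem
  have hpos : ∀ t ∈ Ico 0 T, 0 < v t := profile_pos hK hTK hv0
  obtain ⟨c, -, hc⟩ := secMoment_le hK
  have hpwj : ∀ z ∈ Ico 0 T,
      4 * ((B 0 z * (∫ t in z..T, B 1 t) + (∫ t in z..T, B 0 t) * B 1 z) * (∫ t in z..T, v t)
        - (∫ t in z..T, B 0 t) * (∫ t in z..T, B 1 t) * v z) ≤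
        v z ^ 2 * (∫ t in z..T, v t) ^ 2 := by
    intro z hz
    have hL : Corner (tailSet K z) := corner_tailSet hK hz.1
    have h := pwj_corner hL
    have hs : sec (tailSet K z) 0 = sec K z := by
      rw [sec_tailSet K z (le_refl 0), zero_add]
    have e1 : vol (tailSet K z) = ∫ t in z..T, v t := vol_tailSet hK hTmax hz.1 hz.2.le
    have e2 : ∫ x in tailSet K z, x 1 = ∫ t in z..T, B 0 t :=
      moment_tailSet hK hTmax hz.1 hz.2.le (0 : Fin 2)
    have e3 : ∫ x in tailSet K z, x 2 = ∫ t in z..T, B 1 t :=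
      moment_tailSet hK hTmax hz.1 hz.2.le (1 : Fin 2)
    rw [hs, e1, e2, e3] at h
    have hb0 : B 0 z = ∫ w in sec K z, w 0 := rfl
    have hb1 : B 1 z = ∫ w in sec K z, w 1 := rfl
    have hvz : v z = vol (sec K z) := rfl
    rw [hb0, hb1, hvz]
    linarith
  have hflow := PWJ.tail_integrate T hTpos v (B 0) (B 1) hanti (secMoment_antitone hK 0 T)
    (secMoment_antitone hK 1 T) hpos (hvnn T) (fun z _ => secMoment_nonneg hK 1 z) c
    (fun z _ => hc 0 z) hpwj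
  rw [hX0, hX1, hX2, hVol]
  set Z := ∫ t in (0:ℝ)..T, t * v t with hZ
  set W := ∫ t in (0:ℝ)..T, v t with hW
  set S := ∫ t in (0:ℝ)..T, v t ^ 2 with hS
  set Y1 := ∫ t in (0:ℝ)..T, B 0 t with hY1
  set Y2 := ∫ t in (0:ℝ)..T, B 1 t with hY2
  have hW0 : 0 ≤ W := by rw [← hVol]; exact hV0
  -- hflow : 4 * Y1 * Y2 ≤ S * W,  hJ : 2 * Z * S ≤ W ^ 3
  have h1 : 2 * Z * (4 * Y1 * Y2) ≤ 2 * Z * (S * W) :=
    mul_le_mul_of_nonneg_left hflow (by positivity)
  have h2 : 2 * Z * S * W ≤ W ^ 3 * W := mul_le_mul_of_nonneg_right hJ hW0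
  calc 8 * (Z * Y1 * Y2) = 2 * Z * (4 * Y1 * Y2) := by ring
    _ ≤ 2 * Z * (S * W) := h1
    _ = 2 * Z * S * W := by ring
    _ ≤ W ^ 3 * W := h2
    _ = W ^ 4 := by ring

end Vale.Agent.Lib.P254
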