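import Mathlib
import Vale.Agent.Lib.P254.TailFlow

/-!
# P254, route (h76-6): integration of the tail inequality

`v` is the section area of a convex corner along the coordinate `0`, `B1`, `B2` the first
moments of the sections.  If every tail body satisfies the bracket inequality `H`, then
`4 (∫ B1)(∫ B2) ≤ (∫ v)(∫ v^2)`.
-/

open MeasureTheory Set

namespace Vale.Agent.Lib.P254

theorem pwj_flow (T : ℝ) (hT : 0 < T) (v B1 B2 : ℝ → ℝ) (c : ℝ)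
    (hv_cont : ContinuousOn v (Ioo 0 T)) (hv_int : IntervalIntegrable v volume 0 T)
    (hv_pos : ∀ t ∈ Ioo 0 T, 0 < v t)
    (hv2_int : IntervalIntegrable (fun t => v t ^ 2) volume 0 T)
    (hB1_cont : ContinuousOn B1 (Ioo 0 T)) (hB1_int : IntervalIntegrable B1 volume 0 T)
    (hB1_nonneg : ∀ t ∈ Ioo 0 T, 0 ≤ B1 t) (hB1_le : ∀ t ∈ Ioo 0 T, B1 t ≤ c * v t)
    (hB2_cont : ContinuousOn B2 (Ioo 0 T)) (hB2_int : IntervalIntegrable B2 volume 0 T)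
    (hB2_nonneg : ∀ t ∈ Ioo 0 T, 0 ≤ B2 t) (hB2_le : ∀ t ∈ Ioo 0 T, B2 t ≤ c * v t)
    (H : ∀ t ∈ Ioo 0 T,
      4 * (B1 t * (∫ τ in t..T, B2 τ) * (∫ τ in t..T, v τ)
            + (∫ τ in t..T, B1 τ) * B2 t * (∫ τ in t..T, v τ)
            - (∫ τ in t..T, B1 τ) * (∫ τ in t..T, B2 τ) * v t)
        ≤ v t ^ 2 * (∫ τ in t..T, v τ) ^ 2) :
    4 * (∫ τ in (0:ℝ)..T, B1 τ) * (∫ τ in (0:ℝ)..T, B2 τ)
      ≤ (∫ τ in (0:ℝ)..T, v τ) * ∫ τ in (0:ℝ)..T, v τ ^ 2 := by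
  have hM : ∀ t ∈ Ioo 0 T, (∫ τ in t..T, B1 τ) ≤ c * ∫ τ in t..T, v τ := by
    intro t ht
    have htc : t ∈ Icc 0 T := ⟨ht.1.le, ht.2.le⟩
    rw [← intervalIntegral.integral_const_mul]
    apply intervalIntegral.integral_mono_on_of_le_Ioo ht.2.le
      (Vale.Agent.P254.TailFlow.ii_sub hT hB1_int htc)
      ((Vale.Agent.P254.TailFlow.ii_sub hT hv_int htc).const_mul c)
    intro x hx
    exact hB1_le x ⟨lt_trans ht.1 hx.1, hx.2⟩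
  have hmain := Vale.Agent.P254.TailFlow.tail_ftc T hT v B1 B2 hv_cont hv_int hv_pos hv2_int
    hB1_cont hB1_int hB1_nonneg hB2_cont hB2_int hB2_nonneg
    (fun t => ∫ τ in t..T, v τ) (fun t => ∫ τ in t..T, B1 τ) (fun t => ∫ τ in t..T, B2 τ)
    (fun _ => rfl) (fun _ => rfl) (fun _ => rfl) c hM
    (by
      intro t ht
      have h := H t ht
      calc 4 * ((B1 t * (∫ τ in t..T, B2 τ) + (∫ τ in t..T, B1 τ) * B2 t) * (∫ τ in t..T, v τ)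
              - (∫ τ in t..T, B1 τ) * (∫ τ in t..T, B2 τ) * v t)
          = 4 * (B1 t * (∫ τ in t..T, B2 τ) * (∫ τ in t..T, v τ)
            + (∫ τ in t..T, B1 τ) * B2 t * (∫ τ in t..T, v τ)
            - (∫ τ in t..T, B1 τ) * (∫ τ in t..T, B2 τ) * v t) := by ring
        _ ≤ v t ^ 2 * (∫ τ in t..T, v τ) ^ 2 := h)
  have hN0 : 0 < ∫ τ in (0:ℝ)..T, v τ :=
    Vale.Agent.P254.TailFlow.tail_pos hT hv_int hv_pos ⟨le_rfl, hT⟩
  have h2 := (div_le_iff₀ hN0).1 hmain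
  calc 4 * (∫ τ in (0:ℝ)..T, B1 τ) * (∫ τ in (0:ℝ)..T, B2 τ)
      = 4 * ((∫ τ in (0:ℝ)..T, B1 τ) * (∫ τ in (0:ℝ)..T, B2 τ)) := by ring
    _ ≤ (∫ t in (0:ℝ)..T, v t ^ 2) * (∫ τ in (0:ℝ)..T, v τ) := h2
    _ = (∫ τ in (0:ℝ)..T, v τ) * ∫ τ in (0:ℝ)..T, v τ ^ 2 := by ring

end Vale.Agent.Lib.P254
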