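import Vale.Agent.Lib.P254.Sym.BM2

/-!
# P254, route (h76-6), Lemma 1: homothety of sections

If `p ∈ K` (compact convex in `ℝ³`), the homothety with centre `p` and ratio
`r = (p 0 - t)/(p 0 - s)` maps the section at height `s` into the section at height `t`,
so `|sec K s| (p 0 - t)^2 ≤ |sec K t| (p 0 - s)^2` for `s ≤ t ≤ p 0`.
-/

open MeasureTheory Set
open scoped Pointwise

namespace Vale.Agent.Lib.P254

theorem sec_homothety {K : Set (Fin 3 → ℝ)} (hK : IsCompact K) (hc : Convex ℝ K)
    {p : Fin 3 → ℝ} (hp : p ∈ K) {s t : ℝ} (hst : s ≤ t) (ht : t ≤ p 0) :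
    vol (sec K s) * (p 0 - t) ^ 2 ≤ vol (sec K t) * (p 0 - s) ^ 2 := by
  rcases eq_or_lt_of_le (hst.trans ht) with hs0 | hs0
  · have htp : t = p 0 := le_antisymm ht (by rw [← hs0]; exact hst)
    rw [htp, hs0]
  · have hdpos : 0 < p 0 - s := by linarith
    have hr0 : 0 ≤ (p 0 - t) / (p 0 - s) := div_nonneg (by linarith) hdpos.le
    have hr1 : (p 0 - t) / (p 0 - s) ≤ 1 := by
      rw [div_le_one hdpos]
      linarith
    have hq : (fun j : Fin 2 => p j.succ) ∈ sec K (p 0) := by
      rw [mem_sec]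
      have e : (Fin.cons (p 0) (fun j : Fin 2 => p j.succ) : Fin 3 → ℝ) = p := by
        funext i
        refine Fin.cases ?_ ?_ i
        · simp only [Fin.cons_zero]
        · intro j
          simp only [Fin.cons_succ]
      rw [e]
      exact hp
    have hsub : ((p 0 - t) / (p 0 - s)) • sec K s
        ⊆ (fun h => (1 - (p 0 - t) / (p 0 - s)) • (fun j : Fin 2 => p j.succ) + h) ⁻¹' sec K t := by
      rintro _ ⟨y, hy, rfl⟩
      have h := sec_combo hc hr0 (by linarith : 0 ≤ 1 - (p 0 - t) / (p 0 - s))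
        (by ring : (p 0 - t) / (p 0 - s) + (1 - (p 0 - t) / (p 0 - s)) = 1) hy hq
      have e : (p 0 - t) / (p 0 - s) * s + (1 - (p 0 - t) / (p 0 - s)) * p 0 = t := by
        field_simp
        ring
      rw [e] at h
      rw [mem_preimage, add_comm]
      exact h
    have h1 : volume (((p 0 - t) / (p 0 - s)) • sec K s) ≤ volume (sec K t) := by
      calc volume (((p 0 - t) / (p 0 - s)) • sec K s)
          ≤ volume ((fun h => (1 - (p 0 - t) / (p 0 - s)) • (fun j : Fin 2 => p j.succ) + h) ⁻¹'
              sec K t) := measure_mono hsub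
        _ = volume (sec K t) := measure_preimage_add volume _ _
    have h2 : vol (((p 0 - t) / (p 0 - s)) • sec K s) ≤ vol (sec K t) :=
      ENNReal.toReal_mono (isCompact_sec hK t).measure_lt_top.ne h1
    rw [vol_smul_two] at h2
    have e2 : vol (sec K s) * (p 0 - t) ^ 2
        = (((p 0 - t) / (p 0 - s)) ^ 2 * vol (sec K s)) * (p 0 - s) ^ 2 := by
      field_simp
    rw [e2]
    exact mul_le_mul_of_nonneg_right h2 (sq_nonneg _)

end Vale.Agent.Lib.P254
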