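import Vale.Agent.Lib.P254.PWJ.Defs

/-!
# P254, route (h76-6): basic facts on convex corners and their sections
-/

open MeasureTheory Set

namespace Vale.Agent.Lib.P254

/-- Convex combinations of points of two sections lie in the section at the combined height. -/
private lemma oneDim_sec_combo {n : ℕ} {K : Set (Fin (n+1) → ℝ)} (hc : Convex ℝ K)
    {s t a b : ℝ} (ha : 0 ≤ a) (hb : 0 ≤ b) (hab : a + b = 1) {y y' : Fin n → ℝ}
    (hy : y ∈ sec K s) (hy' : y' ∈ sec K t) :
    a • y + b • y' ∈ sec K (a * s + b * t) := by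
  rw [mem_sec] at hy hy' ⊢
  have h := hc hy hy' ha hb hab
  have heq : (Fin.cons (a * s + b * t) (a • y + b • y') : Fin (n+1) → ℝ)
      = a • (Fin.cons s y : Fin (n+1) → ℝ) + b • (Fin.cons t y' : Fin (n+1) → ℝ) := by
    funext i
    refine Fin.cases ?_ ?_ i
    · simp only [Fin.cons_zero, Pi.add_apply, Pi.smul_apply, smul_eq_mul]
    · intro j
      simp only [Fin.cons_succ, Pi.add_apply, Pi.smul_apply, smul_eq_mul]
  rw [heq]
  exact h

/-- Sections of a convex set are convex. -/
private lemma oneDim_convex_sec {n : ℕ} {K : Set (Fin (n+1) → ℝ)} (hc : Convex ℝ K) (t : ℝ) :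
    Convex ℝ (sec K t) := by
  intro y hy y' hy' a b ha hb hab
  have h := oneDim_sec_combo hc ha hb hab hy hy'
  have e : a * t + b * t = t := by rw [← add_mul, hab, one_mul]
  rwa [e] at h

/-- Sections of a corner are corners. -/
theorem corner_sec {n : ℕ} {K : Set (Fin (n+1) → ℝ)} (hK : Corner K) (t : ℝ) :
    Corner (sec K t) := by
  obtain ⟨hcomp, hconv, horth, hdown⟩ := hK
  refine ⟨isCompact_sec hcomp t, oneDim_convex_sec hconv t, ?_, ?_⟩
  · intro y hy i
    have h := horth (Fin.cons t y) (mem_sec.1 hy) i.succ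
    rw [Fin.cons_succ] at h
    exact h
  · intro y hy y' hy'0 hy'le
    rw [mem_sec] at hy ⊢
    have ht : 0 ≤ t := by
      have h := horth (Fin.cons t y) hy 0
      rw [Fin.cons_zero] at h
      exact h
    refine hdown (Fin.cons t y) hy (Fin.cons t y') ?_ ?_
    · intro i
      refine Fin.cases ?_ ?_ i
      · rw [Fin.cons_zero]
        exact ht
      · intro j
        rw [Fin.cons_succ]
        exact hy'0 j
    · intro i
      refine Fin.cases ?_ ?_ i
      · rw [Fin.cons_zero, Fin.cons_zero]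
      · intro j
        rw [Fin.cons_succ, Fin.cons_succ]
        exact hy'le j

/-- Sections of a corner decrease with the height. -/
theorem corner_sec_anti {n : ℕ} {K : Set (Fin (n+1) → ℝ)} (hK : Corner K) {s t : ℝ}
    (hs : 0 ≤ s) (hst : s ≤ t) : sec K t ⊆ sec K s := by
  obtain ⟨hcomp, hconv, horth, hdown⟩ := hK
  intro y hy
  rw [mem_sec] at hy ⊢
  refine hdown (Fin.cons t y) hy (Fin.cons s y) ?_ ?_
  · intro i
    refine Fin.cases ?_ ?_ i
    · rw [Fin.cons_zero]
      exact hs
    · intro j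
      have h := horth (Fin.cons t y) hy j.succ
      rw [Fin.cons_succ] at h ⊢
      exact h
  · intro i
    refine Fin.cases ?_ ?_ i
    · rw [Fin.cons_zero, Fin.cons_zero]
      exact hst
    · intro j
      rw [Fin.cons_succ, Fin.cons_succ]

/-- Sections of a corner at negative heights are empty. -/
theorem corner_sec_neg {n : ℕ} {K : Set (Fin (n+1) → ℝ)} (hK : Corner K) {t : ℝ}
    (ht : t < 0) : sec K t = ∅ := by
  obtain ⟨hcomp, hconv, horth, hdown⟩ := hK
  rw [eq_empty_iff_forall_notMem]
  intro y hy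
  have h := horth (Fin.cons t y) (mem_sec.1 hy) 0
  rw [Fin.cons_zero] at h
  exact absurd h (not_le.mpr ht)

/-- A nonempty corner contains the origin. -/
theorem corner_zero_mem {n : ℕ} {K : Set (Fin n → ℝ)} (hK : Corner K) (hne : K.Nonempty) :
    (0 : Fin n → ℝ) ∈ K := by
  obtain ⟨hcomp, hconv, horth, hdown⟩ := hK
  obtain ⟨x, hx⟩ := hne
  exact hdown x hx 0 (fun i => le_refl (0 : ℝ)) (fun i => horth x hx i)

/-- The extent of a nonempty corner along the coordinate `0` is attained on the axis. -/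
theorem corner_extent {n : ℕ} {K : Set (Fin (n+1) → ℝ)} (hK : Corner K) (hne : K.Nonempty) :
    ∃ M : ℝ, 0 ≤ M ∧ (Fin.cons M 0 : Fin (n+1) → ℝ) ∈ K ∧ ∀ x ∈ K, x 0 ≤ M := by
  obtain ⟨hcomp, hconv, horth, hdown⟩ := hK
  obtain ⟨x, hx, hmax⟩ := hcomp.exists_isMaxOn hne
    (f := fun x : Fin (n+1) → ℝ => x 0) (continuous_apply 0).continuousOn
  refine ⟨x 0, horth x hx 0, ?_, ?_⟩
  · refine hdown x hx (Fin.cons (x 0) 0) ?_ ?_
    · intro i
      refine Fin.cases ?_ ?_ i
      · rw [Fin.cons_zero]
        exact horth x hx 0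
      · intro j
        rw [Fin.cons_succ]
        exact le_refl (0 : ℝ)
    · intro i
      refine Fin.cases ?_ ?_ i
      · rw [Fin.cons_zero]
      · intro j
        rw [Fin.cons_succ]
        exact horth x hx j.succ
  · intro x' hx'
    exact hmax hx'

end Vale.Agent.Lib.P254
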