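import Vale.Agent.Lib.P254.PWJ.Defs

/-!
# P254, route (h76-6): permutations of the coordinates
-/

open MeasureTheory Set

namespace Vale.Agent.Lib.P254

/-- The coordinate permutation, as a measurable equivalence, is composition with `σ`. -/
theorem pwjperm_coe {n : ℕ} (σ : Equiv.Perm (Fin n)) (x : Fin n → ℝ) :
    MeasurableEquiv.piCongrLeft (fun _ : Fin n => ℝ) σ.symm x = x ∘ σ := by
  funext b
  have h := Equiv.piCongrLeft_apply_apply (fun _ : Fin n => ℝ) σ.symm x (σ b)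
  rw [Equiv.symm_apply_apply] at h
  exact h

/-- The permuted set is a preimage under the coordinate permutation. -/
theorem pwjperm_preimage {n : ℕ} (σ : Equiv.Perm (Fin n)) (K : Set (Fin n → ℝ)) :
    (MeasurableEquiv.piCongrLeft (fun _ : Fin n => ℝ) σ.symm) ⁻¹' K = permSet σ K := by
  ext x
  rw [mem_preimage, pwjperm_coe]
  rfl

theorem corner_permSet {n : ℕ} {K : Set (Fin n → ℝ)} (hK : Corner K)
    (σ : Equiv.Perm (Fin n)) : Corner (permSet σ K) := by
  refine ⟨?_, ?_, ?_, ?_⟩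
  · have himg : permSet σ K = (fun y : Fin n → ℝ => y ∘ σ.symm) '' K := by
      ext x
      constructor
      · intro hx
        refine ⟨x ∘ σ, hx, ?_⟩
        funext b
        simp only [Function.comp_apply, Equiv.apply_symm_apply]
      · rintro ⟨y, hy, rfl⟩
        show (y ∘ σ.symm) ∘ σ ∈ K
        have e : (y ∘ σ.symm) ∘ σ = y := by
          funext b
          simp only [Function.comp_apply, Equiv.symm_apply_apply]
        rw [e]
        exact hy
    rw [himg]
    exact hK.1.image (continuous_pi (fun i => continuous_apply (σ.symm i)))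
  · intro x hx y hy a b ha hb hab
    have hx' : x ∘ σ ∈ K := hx
    have hy' : y ∘ σ ∈ K := hy
    have h := hK.2.1 hx' hy' ha hb hab
    have e : (a • x + b • y) ∘ σ = a • (x ∘ σ) + b • (y ∘ σ) := by
      funext i
      rfl
    show (a • x + b • y) ∘ σ ∈ K
    rw [e]
    exact h
  · intro x hx i
    have hx' : x ∘ σ ∈ K := hx
    have h := hK.2.2.1 (x ∘ σ) hx' (σ.symm i)
    rw [Function.comp_apply, Equiv.apply_symm_apply] at h
    exact h
  · intro x hx y hy0 hyx
    have hx' : x ∘ σ ∈ K := hx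
    exact hK.2.2.2 (x ∘ σ) hx' (y ∘ σ) (fun i => hy0 (σ i)) (fun i => hyx (σ i))

theorem setIntegral_permSet {n : ℕ} (σ : Equiv.Perm (Fin n)) (K : Set (Fin n → ℝ))
    (F : (Fin n → ℝ) → ℝ) : ∫ x in permSet σ K, F (x ∘ σ) = ∫ x in K, F x := by
  have hmp : MeasurePreserving (MeasurableEquiv.piCongrLeft (fun _ : Fin n => ℝ) σ.symm)
      volume volume := volume_measurePreserving_piCongrLeft (fun _ : Fin n => ℝ) σ.symm
  have key := hmp.setIntegral_preimage_emb
    (MeasurableEquiv.piCongrLeft (fun _ : Fin n => ℝ) σ.symm).measurableEmbedding F K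
  rw [pwjperm_preimage] at key
  simp only [pwjperm_coe] at key
  exact key

theorem vol_permSet {n : ℕ} (σ : Equiv.Perm (Fin n)) (K : Set (Fin n → ℝ)) :
    vol (permSet σ K) = vol K := by
  have hmp : MeasurePreserving (MeasurableEquiv.piCongrLeft (fun _ : Fin n => ℝ) σ.symm)
      volume volume := volume_measurePreserving_piCongrLeft (fun _ : Fin n => ℝ) σ.symm
  unfold vol
  rw [← pwjperm_preimage, hmp.measure_preimage_equiv]

theorem sec_sec_swap01 (K : Set (Fin 3 → ℝ)) (y : ℝ) :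
    sec (sec (permSet (Equiv.swap 0 1) K) y) 0 = sec (sec K 0) y := by
  ext u
  have e : (Fin.cons y (Fin.cons 0 u) : Fin 3 → ℝ) ∘ (Equiv.swap (0 : Fin 3) 1)
      = (Fin.cons 0 (Fin.cons y u) : Fin 3 → ℝ) := by
    funext i
    fin_cases i <;> rfl
  show (Fin.cons y (Fin.cons 0 u) : Fin 3 → ℝ) ∘ (Equiv.swap (0 : Fin 3) 1) ∈ K
    ↔ (Fin.cons 0 (Fin.cons y u) : Fin 3 → ℝ) ∈ K
  rw [e]

theorem sec_swap12 (K : Set (Fin 3 → ℝ)) (z : ℝ) :
    sec (permSet (Equiv.swap 1 2) K) z = permSet (Equiv.swap 0 1) (sec K z) := by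
  ext w
  have e : (Fin.cons z w : Fin 3 → ℝ) ∘ (Equiv.swap (1 : Fin 3) 2)
      = (Fin.cons z (w ∘ (Equiv.swap (0 : Fin 2) 1)) : Fin 3 → ℝ) := by
    funext i
    fin_cases i <;> rfl
  show (Fin.cons z w : Fin 3 → ℝ) ∘ (Equiv.swap (1 : Fin 3) 2) ∈ K
    ↔ (Fin.cons z (w ∘ (Equiv.swap (0 : Fin 2) 1)) : Fin 3 → ℝ) ∈ K
  rw [e]

end Vale.Agent.Lib.P254
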