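import Mathlib

/-!
# P254, route (h76-6): the algebra of the planar weighted inequality

Two polynomial facts.  In both, `I0` is the area of the facet, `V` the volume of the corner,
`m0`, `m1` the first moments of the corner in the two facet directions.
-/

namespace Vale.Agent.Lib.P254

/-- Half case: the weighted centroid coordinate in the chord direction is at least the
unweighted one (`h1`).  `M` is the height of the facet in the slicing direction, `I1` and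
`J0 / 2` the first moments of the facet in the slicing and chord directions, `C` the
integral of `(M - y)^2` against the chord length; `hm1` is the cone bound, `hm0` and `hI`
the quarter bounds for the corner and the facet, `hQ` the quadratic inequality. -/
theorem pwj_half_algebra (M I0 I1 J0 C V m0 m1 : ℝ) (hM : 0 < M) (hV : 0 ≤ V)
    (hm1 : m1 * (2 * M ^ 3) ≤ 3 * C * V) (hm0 : M * V ≤ 4 * m0) (hI : M * I0 ≤ 4 * I1)
    (hQ : 0 ≤ 2 * M ^ 3 * I0 ^ 2 + 3 * M * C * I0 - 12 * C * I1 - M ^ 4 * J0)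
    (h1 : J0 / 2 * V ≤ m1 * I0) :
    4 * ((I1 * m1 + m0 * (J0 / 2)) * V - m0 * m1 * I0) ≤ I0 ^ 2 * V ^ 2 := by
  have hM3 : (0:ℝ) < 2 * M ^ 3 := by positivity
  have hA : 0 ≤ (4 * m0 - M * V) * (m1 * I0 - J0 / 2 * V) :=
    mul_nonneg (sub_nonneg.2 hm0) (sub_nonneg.2 h1)
  have hB : 0 ≤ (3 * C * V - m1 * (2 * M ^ 3)) * (4 * I1 - M * I0) :=
    mul_nonneg (sub_nonneg.2 hm1) (sub_nonneg.2 hI)
  have hV2 : 0 ≤ V ^ 2 := sq_nonneg V
  have key : 2 * M ^ 3 * (I0 ^ 2 * V ^ 2 - 4 * ((I1 * m1 + m0 * (J0 / 2)) * V - m0 * m1 * I0))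
      = 2 * M ^ 3 * ((4 * m0 - M * V) * (m1 * I0 - J0 / 2 * V))
        + V * ((3 * C * V - m1 * (2 * M ^ 3)) * (4 * I1 - M * I0))
        + V ^ 2 * (2 * M ^ 3 * I0 ^ 2 + 3 * M * C * I0 - 12 * C * I1 - M ^ 4 * J0) := by
    ring
  have hnn : 0 ≤ 2 * M ^ 3
      * (I0 ^ 2 * V ^ 2 - 4 * ((I1 * m1 + m0 * (J0 / 2)) * V - m0 * m1 * I0)) := by
    rw [key]
    have t1 : 0 ≤ 2 * M ^ 3 * ((4 * m0 - M * V) * (m1 * I0 - J0 / 2 * V)) :=
      mul_nonneg hM3.le hA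
    have t2 : 0 ≤ V * ((3 * C * V - m1 * (2 * M ^ 3)) * (4 * I1 - M * I0)) :=
      mul_nonneg hV hB
    have t3 : 0 ≤ V ^ 2 * (2 * M ^ 3 * I0 ^ 2 + 3 * M * C * I0 - 12 * C * I1 - M ^ 4 * J0) :=
      mul_nonneg hV2 hQ
    linarith
  have h := nonneg_of_mul_nonneg_right hnn hM3
  linarith

/-- Same-sign case: both weighted centroid coordinates are at most the unweighted ones
(`ha`, `hb`), and the facet satisfies the planar inequality `4 a b ≤ I0 ^ 3` (`hJ`), where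
`a`, `b` are the first moments of the facet. -/
theorem pwj_same_sign_algebra (I0 a b V m0 m1 : ℝ) (hI0 : 0 < I0)
    (ha : m0 * I0 ≤ a * V) (hb : m1 * I0 ≤ b * V) (hJ : 4 * (a * b) ≤ I0 ^ 3) :
    4 * ((a * m1 + m0 * b) * V - m0 * m1 * I0) ≤ I0 ^ 2 * V ^ 2 := by
  have hA : 0 ≤ (a * V - m0 * I0) * (b * V - m1 * I0) :=
    mul_nonneg (sub_nonneg.2 ha) (sub_nonneg.2 hb)
  have hV2 : 0 ≤ V ^ 2 := sq_nonneg V
  have key : I0 * (I0 ^ 2 * V ^ 2 - 4 * ((a * m1 + m0 * b) * V - m0 * m1 * I0))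
      = V ^ 2 * (I0 ^ 3 - 4 * (a * b)) + 4 * ((a * V - m0 * I0) * (b * V - m1 * I0)) := by
    ring
  have hnn : 0 ≤ I0 * (I0 ^ 2 * V ^ 2 - 4 * ((a * m1 + m0 * b) * V - m0 * m1 * I0)) := by
    rw [key]
    have t1 : 0 ≤ V ^ 2 * (I0 ^ 3 - 4 * (a * b)) := mul_nonneg hV2 (sub_nonneg.2 hJ)
    linarith
  have h := nonneg_of_mul_nonneg_right hnn hI0
  linarith

end Vale.Agent.Lib.P254
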