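import Mathlib

/-!
# P254, route PWJ: the polynomial inequalities behind the quadratic lemma

`quad_poly` is `12 B(φ_c, φ_d)` for the ramps `φ_c = min (1-c) (1-y)`, `a = 1 - c ≥ b = 1 - d`,
and `quad_poly_one` is `12 B(1, φ_c)`, where `B` is the polar form of
`Q(l) = 2 I0² + 3 C I0 - 12 C I1 - J0`.  Both follow from an exact Bernstein form.
-/

namespace Vale.Agent.Lib.P254

private lemma quad_poly_core (a b : ℝ) (hb : 0 ≤ b) (hba : b ≤ a) (ha : a ≤ 1) :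
    0 ≤ 2 * b ^ 2 - 3 * a * b + 3 * a ^ 2 - 4 * a * b ^ 2 + 6 * a ^ 2 * b - 4 * a ^ 3
      + 3 / 2 * a * b ^ 3 + 3 / 2 * a ^ 4 - 9 / 4 * a ^ 2 * b ^ 3 - 9 / 4 * a ^ 4 * b
      + a ^ 3 * b ^ 3 + a ^ 4 * b ^ 2 := by
  have ha0 : 0 ≤ a := hb.trans hba
  have h1 : 0 ≤ 1 - a := by linarith
  have hd : 0 ≤ a - b := by linarith
  rcases ha0.eq_or_lt with h | hpos
  · have hb0 : b = 0 := by linarith
    subst hb0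
    rw [← h]
    norm_num
  · have key : a * (2 * b ^ 2 - 3 * a * b + 3 * a ^ 2 - 4 * a * b ^ 2 + 6 * a ^ 2 * b - 4 * a ^ 3
        + 3 / 2 * a * b ^ 3 + 3 / 2 * a ^ 4 - 9 / 4 * a ^ 2 * b ^ 3 - 9 / 4 * a ^ 4 * b
        + a ^ 3 * b ^ 3 + a ^ 4 * b ^ 2)
        = 3 * (1 - a) ^ 4 * (a - b) ^ 3 + 6 * (1 - a) ^ 4 * b * (a - b) ^ 2
          + 5 * (1 - a) ^ 4 * b ^ 2 * (a - b) + 2 * (1 - a) ^ 4 * b ^ 3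
          + 8 * a * (1 - a) ^ 3 * (a - b) ^ 3 + 18 * a * (1 - a) ^ 3 * b * (a - b) ^ 2
          + 16 * a * (1 - a) ^ 3 * b ^ 2 * (a - b) + 6 * a * (1 - a) ^ 3 * b ^ 3
          + 15 / 2 * a ^ 2 * (1 - a) ^ 2 * (a - b) ^ 3 + 45 / 2 * a ^ 2 * (1 - a) ^ 2 * b * (a - b) ^ 2
          + 45 / 2 * a ^ 2 * (1 - a) ^ 2 * b ^ 2 * (a - b) + 9 * a ^ 2 * (1 - a) ^ 2 * b ^ 3
          + 3 * a ^ 3 * (1 - a) * (a - b) ^ 3 + 51 / 4 * a ^ 3 * (1 - a) * b * (a - b) ^ 2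
          + 25 / 2 * a ^ 3 * (1 - a) * b ^ 2 * (a - b) + 7 / 2 * a ^ 3 * (1 - a) * b ^ 3
          + 1 / 2 * a ^ 4 * (a - b) ^ 3 + 9 / 4 * a ^ 4 * b * (a - b) ^ 2
          + 2 * a ^ 4 * b ^ 2 * (a - b) + 1 / 2 * a ^ 4 * b ^ 3 := by
      ring
    have hnn : 0 ≤ a * (2 * b ^ 2 - 3 * a * b + 3 * a ^ 2 - 4 * a * b ^ 2 + 6 * a ^ 2 * b - 4 * a ^ 3
        + 3 / 2 * a * b ^ 3 + 3 / 2 * a ^ 4 - 9 / 4 * a ^ 2 * b ^ 3 - 9 / 4 * a ^ 4 * b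
        + a ^ 3 * b ^ 3 + a ^ 4 * b ^ 2) := by
      rw [key]
      positivity
    exact nonneg_of_mul_nonneg_right hnn hpos

/-- `12 B(φ_c, φ_d) ≥ 0` for the ramps `φ_c = min (1-c) (1-y)`, with `a = 1 - c ≥ b = 1 - d`. -/
theorem quad_poly (a b : ℝ) (hb : 0 ≤ b) (hab : b ≤ a) (ha : a ≤ 1) :
    0 ≤ 3 * a * b * (a - b) + 6 * a ^ 2 * b ^ 2 - 4 * a ^ 3 * b - 4 * a * b ^ 3
      + 3 / 2 * a * b * (a ^ 3 + b ^ 3) - 9 / 4 * a ^ 2 * b ^ 2 * (a ^ 2 + b ^ 2)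
      + a ^ 3 * b ^ 3 * (a + b) + 2 * b ^ 3 := by
  have h := mul_nonneg hb (quad_poly_core a b hb hab ha)
  have e : 3 * a * b * (a - b) + 6 * a ^ 2 * b ^ 2 - 4 * a ^ 3 * b - 4 * a * b ^ 3
      + 3 / 2 * a * b * (a ^ 3 + b ^ 3) - 9 / 4 * a ^ 2 * b ^ 2 * (a ^ 2 + b ^ 2)
      + a ^ 3 * b ^ 3 * (a + b) + 2 * b ^ 3
      = b * (2 * b ^ 2 - 3 * a * b + 3 * a ^ 2 - 4 * a * b ^ 2 + 6 * a ^ 2 * b - 4 * a ^ 3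
      + 3 / 2 * a * b ^ 3 + 3 / 2 * a ^ 4 - 9 / 4 * a ^ 2 * b ^ 3 - 9 / 4 * a ^ 4 * b
      + a ^ 3 * b ^ 3 + a ^ 4 * b ^ 2) := by
    ring
  rw [e]
  exact h

/-- `12 B(1, φ_c) ≥ 0` for the ramp `φ_c = min (1-c) (1-y)`, with `a = 1 - c`. -/
theorem quad_poly_one (a : ℝ) (h0 : 0 ≤ a) (h1 : a ≤ 1) :
    0 ≤ a ^ 2 * (3 - 4 * a + 3 / 2 * a ^ 2) := by
  have h : 0 ≤ 3 - 4 * a + 3 / 2 * a ^ 2 := by nlinarith [sq_nonneg (a - 1), sq_nonneg a]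
  exact mul_nonneg (pow_nonneg h0 2) h

end Vale.Agent.Lib.P254
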