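import Mathlib
import Vale.Agent.Lib.P254.PWJ.Quad.ConcavePos
import Vale.Agent.Lib.P254.PWJ.PolarKer

/-!
# P254, route (h76-6), Lemma 3 on the unit interval

For `l ≥ 0` concave and antitone on `[0,1]`, with `I0 = ∫ l`, `I1 = ∫ y l`, `C = ∫ (1-y)² l`,
`J0 = ∫ l²`:  `2 I0² + 3 C I0 - 12 C I1 - J0 ≥ 0`.  The quadratic form is `polarB l l`; the
polar form is nonnegative on ramps and constants (`RampInt`), each `polarB f ·` is integration
against a kernel (`PolarKer`), and a functional that is nonnegative on the constant and on the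
ramps is nonnegative on concave antitone nonnegative functions (`ConcavePos`).  Three
applications of the criterion give the result.
-/

namespace Vale.Agent.Lib.P254.H75

open MeasureTheory intervalIntegral Set

/-- The polar form is nonnegative on a ramp and a concave antitone nonnegative function. -/
theorem polarB_ramp_concave_nonneg (l : ℝ → ℝ) (hc : ConcaveOn ℝ (Icc 0 1) l)
    (ha : AntitoneOn l (Icc 0 1)) (h0 : ∀ y ∈ Icc (0:ℝ) 1, 0 ≤ l y) {a : ℝ} (ha0 : 0 ≤ a)
    (ha1 : a ≤ 1) : 0 ≤ polarB (ramp a) l := by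
  have hl : IntervalIntegrable l volume 0 1 := by
    apply AntitoneOn.intervalIntegrable
    rw [uIcc_of_le zero_le_one]
    exact ha
  have hr : IntervalIntegrable (ramp a) volume 0 1 := (ramp_continuous a).intervalIntegrable 0 1
  have hprod : IntervalIntegrable (fun y => ramp a y * l y) volume 0 1 :=
    hl.continuousOn_mul (ramp_continuous a).continuousOn
  rw [polarB_eq_integral_polarKer (ramp a) l hl hprod]
  apply PWJ.concave_pos_functional (polarKer (ramp a)) (polarKer_intervalIntegrable _ hr) _ _ l hc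
    ha h0
  · rw [integral_polarKer _ hr]
    exact polarB_ramp_one_nonneg ha0 ha1
  · intro d hd
    have h := integral_polarKer_mul_ramp (ramp a) hr (1 - d)
    have h2 : 0 ≤ polarB (ramp a) (ramp (1 - d)) :=
      polarB_ramp_ramp_nonneg ha0 ha1 (by linarith [hd.2]) (by linarith [hd.1])
    rw [← h] at h2
    exact h2

/-- The polar form is nonnegative on the constant `1` and a concave antitone nonnegative
function. -/
theorem polarB_one_concave_nonneg (l : ℝ → ℝ) (hc : ConcaveOn ℝ (Icc 0 1) l)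
    (ha : AntitoneOn l (Icc 0 1)) (h0 : ∀ y ∈ Icc (0:ℝ) 1, 0 ≤ l y) :
    0 ≤ polarB (fun _ => 1) l := by
  have hl : IntervalIntegrable l volume 0 1 := by
    apply AntitoneOn.intervalIntegrable
    rw [uIcc_of_le zero_le_one]
    exact ha
  have h1 : IntervalIntegrable (fun _ : ℝ => (1:ℝ)) volume 0 1 := intervalIntegrable_const
  have hprod : IntervalIntegrable (fun y => (fun _ : ℝ => (1:ℝ)) y * l y) volume 0 1 := by
    simpa using hl
  rw [polarB_eq_integral_polarKer (fun _ => 1) l hl hprod]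
  apply PWJ.concave_pos_functional (polarKer (fun _ => 1)) (polarKer_intervalIntegrable _ h1) _ _
    l hc ha h0
  · rw [integral_polarKer _ h1, polarB_one_one]
  · intro d hd
    have h := integral_polarKer_mul_ramp (fun _ : ℝ => (1:ℝ)) h1 (1 - d)
    have h2 : 0 ≤ polarB (fun _ : ℝ => (1:ℝ)) (ramp (1 - d)) :=
      polarB_one_ramp_nonneg (by linarith [hd.2]) (by linarith [hd.1])
    rw [← h] at h2
    exact h2

/-- **Lemma 3 on `[0,1]`, polar form.**  `0 ≤ polarB l l` for `l ≥ 0` concave antitone. -/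
theorem polarB_self_nonneg (l : ℝ → ℝ) (hc : ConcaveOn ℝ (Icc 0 1) l)
    (ha : AntitoneOn l (Icc 0 1)) (h0 : ∀ y ∈ Icc (0:ℝ) 1, 0 ≤ l y) : 0 ≤ polarB l l := by
  have hl : IntervalIntegrable l volume 0 1 := by
    apply AntitoneOn.intervalIntegrable
    rw [uIcc_of_le zero_le_one]
    exact ha
  have hsq : AntitoneOn (fun y => l y * l y) (Icc 0 1) := by
    intro x hx y hy hxy
    have h1 : l y ≤ l x := ha hx hy hxy
    exact mul_le_mul h1 h1 (h0 y hy) (h0 x hx)
  have hprod : IntervalIntegrable (fun y => l y * l y) volume 0 1 := by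
    apply AntitoneOn.intervalIntegrable
    rw [uIcc_of_le zero_le_one]
    exact hsq
  rw [polarB_eq_integral_polarKer l l hl hprod]
  apply PWJ.concave_pos_functional (polarKer l) (polarKer_intervalIntegrable _ hl) _ _ l hc ha h0
  · rw [integral_polarKer _ hl, polarB_comm]
    exact polarB_one_concave_nonneg l hc ha h0
  · intro d hd
    have h := integral_polarKer_mul_ramp l hl (1 - d)
    have h2 : 0 ≤ polarB l (ramp (1 - d)) := by
      rw [polarB_comm]
      exact polarB_ramp_concave_nonneg l hc ha h0 (by linarith [hd.2]) (by linarith [hd.1])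
    rw [← h] at h2
    exact h2

/-- **Lemma 3 on `[0,1]`.**  `2 I0² + 3 C I0 - 12 C I1 - J0 ≥ 0` for `l ≥ 0` concave and
antitone on `[0,1]`. -/
theorem quad_unit (l : ℝ → ℝ) (hc : ConcaveOn ℝ (Icc (0:ℝ) 1) l)
    (ha : AntitoneOn l (Icc (0:ℝ) 1)) (h0 : ∀ y ∈ Icc (0:ℝ) 1, 0 ≤ l y) :
    0 ≤ 2 * (∫ y in (0:ℝ)..1, l y) ^ 2
      + 3 * (∫ y in (0:ℝ)..1, (1 - y) ^ 2 * l y) * (∫ y in (0:ℝ)..1, l y)
      - 12 * (∫ y in (0:ℝ)..1, (1 - y) ^ 2 * l y) * (∫ y in (0:ℝ)..1, y * l y)
      - ∫ y in (0:ℝ)..1, l y ^ 2 := by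
  have h := polarB_self_nonneg l hc ha h0
  rw [polarB_self] at h
  exact h

end Vale.Agent.Lib.P254.H75
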