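import Mathlib
import Vale.Agent.Lib.P254.PWJ.QuadUnit

/-!
# P254, route (h76-6), Lemma 3 on `[0, M]`

For `l ≥ 0` concave and antitone on `[0, M]`, with `I0 = ∫ l`, `I1 = ∫ y l`, `C = ∫ (M-y)² l`,
`J0 = ∫ l²`:  `12 C I1 + M⁴ J0 ≤ 2 M³ I0² + 3 M C I0`.  Obtained from the unit case `quad_unit`
by the substitution `y = M s`.
-/

namespace Vale.Agent.Lib.P254.H75

open MeasureTheory intervalIntegral Set

/-- **Lemma 3 on `[0, M]`.** -/
theorem quad_scaled (M : ℝ) (hM : 0 < M) (l : ℝ → ℝ) (hc : ConcaveOn ℝ (Icc 0 M) l)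
    (ha : AntitoneOn l (Icc 0 M)) (h0 : ∀ y ∈ Icc 0 M, 0 ≤ l y) :
    0 ≤ 2 * M ^ 3 * (∫ y in (0:ℝ)..M, l y) ^ 2
      + 3 * M * (∫ y in (0:ℝ)..M, (M - y) ^ 2 * l y) * (∫ y in (0:ℝ)..M, l y)
      - 12 * (∫ y in (0:ℝ)..M, (M - y) ^ 2 * l y) * (∫ y in (0:ℝ)..M, y * l y)
      - M ^ 4 * ∫ y in (0:ℝ)..M, l y ^ 2 := by
  have hmem : ∀ s ∈ Icc (0:ℝ) 1, M * s ∈ Icc 0 M := by
    intro s hs
    refine ⟨mul_nonneg hM.le hs.1, ?_⟩
    have h := mul_le_mul_of_nonneg_left hs.2 hM.le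
    rw [mul_one] at h
    exact h
  have hc' : ConcaveOn ℝ (Icc 0 1) (fun s => l (M * s)) := by
    refine ⟨convex_Icc 0 1, ?_⟩
    intro x hx y hy a b ha' hb' hab
    have h := hc.2 (hmem x hx) (hmem y hy) ha' hb' hab
    have e : M * (a • x + b • y) = a • (M * x) + b • (M * y) := by
      simp only [smul_eq_mul]
      ring
    show a • l (M * x) + b • l (M * y) ≤ l (M * (a • x + b • y))
    rw [e]
    exact h
  have ha' : AntitoneOn (fun s => l (M * s)) (Icc 0 1) := by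
    intro x hx y hy hxy
    exact ha (hmem x hx) (hmem y hy) (mul_le_mul_of_nonneg_left hxy hM.le)
  have h0' : ∀ s ∈ Icc (0:ℝ) 1, 0 ≤ (fun s => l (M * s)) s := fun s hs => h0 _ (hmem s hs)
  have key := quad_unit (fun s => l (M * s)) hc' ha' h0'
  have e0 : ∫ y in (0:ℝ)..M, l y = M * ∫ s in (0:ℝ)..1, l (M * s) := by
    have h := intervalIntegral.smul_integral_comp_mul_left (a := 0) (b := 1) l M
    rw [mul_zero, mul_one, smul_eq_mul] at h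
    exact h.symm
  have e1 : ∫ y in (0:ℝ)..M, y * l y = M ^ 2 * ∫ s in (0:ℝ)..1, s * l (M * s) := by
    have h := intervalIntegral.smul_integral_comp_mul_left (a := 0) (b := 1)
      (fun y => y * l y) M
    rw [mul_zero, mul_one, smul_eq_mul] at h
    rw [← h]
    have h2 : ∫ s in (0:ℝ)..1, M * s * l (M * s) = M * ∫ s in (0:ℝ)..1, s * l (M * s) := by
      rw [← intervalIntegral.integral_const_mul]
      apply integral_congr
      intro s _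
      ring
    rw [h2]
    ring
  have eC : ∫ y in (0:ℝ)..M, (M - y) ^ 2 * l y
      = M ^ 3 * ∫ s in (0:ℝ)..1, (1 - s) ^ 2 * l (M * s) := by
    have h := intervalIntegral.smul_integral_comp_mul_left (a := 0) (b := 1)
      (fun y => (M - y) ^ 2 * l y) M
    rw [mul_zero, mul_one, smul_eq_mul] at h
    rw [← h]
    have h2 : ∫ s in (0:ℝ)..1, (M - M * s) ^ 2 * l (M * s)
        = M ^ 2 * ∫ s in (0:ℝ)..1, (1 - s) ^ 2 * l (M * s) := by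
      rw [← intervalIntegral.integral_const_mul]
      apply integral_congr
      intro s _
      ring
    rw [h2]
    ring
  have eJ : ∫ y in (0:ℝ)..M, l y ^ 2 = M * ∫ s in (0:ℝ)..1, l (M * s) ^ 2 := by
    have h := intervalIntegral.smul_integral_comp_mul_left (a := 0) (b := 1)
      (fun y => l y ^ 2) M
    rw [mul_zero, mul_one, smul_eq_mul] at h
    exact h.symm
  have h5 : 0 ≤ M ^ 5 * (2 * (∫ s in (0:ℝ)..1, l (M * s)) ^ 2
      + 3 * (∫ s in (0:ℝ)..1, (1 - s) ^ 2 * l (M * s)) * (∫ s in (0:ℝ)..1, l (M * s))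
      - 12 * (∫ s in (0:ℝ)..1, (1 - s) ^ 2 * l (M * s)) * (∫ s in (0:ℝ)..1, s * l (M * s))
      - ∫ s in (0:ℝ)..1, l (M * s) ^ 2) :=
    mul_nonneg (pow_nonneg hM.le 5) key
  have hfin : 2 * M ^ 3 * (∫ y in (0:ℝ)..M, l y) ^ 2
      + 3 * M * (∫ y in (0:ℝ)..M, (M - y) ^ 2 * l y) * (∫ y in (0:ℝ)..M, l y)
      - 12 * (∫ y in (0:ℝ)..M, (M - y) ^ 2 * l y) * (∫ y in (0:ℝ)..M, y * l y)
      - M ^ 4 * ∫ y in (0:ℝ)..M, l y ^ 2
      = M ^ 5 * (2 * (∫ s in (0:ℝ)..1, l (M * s)) ^ 2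
      + 3 * (∫ s in (0:ℝ)..1, (1 - s) ^ 2 * l (M * s)) * (∫ s in (0:ℝ)..1, l (M * s))
      - 12 * (∫ s in (0:ℝ)..1, (1 - s) ^ 2 * l (M * s)) * (∫ s in (0:ℝ)..1, s * l (M * s))
      - ∫ s in (0:ℝ)..1, l (M * s) ^ 2) := by
    rw [e0, e1, eC, eJ]
    ring
  rw [hfin]
  exact h5

/-- Lemma 3 on `[0, M]` in the form `12 C I1 + M⁴ J0 ≤ 2 M³ I0² + 3 M C I0`. -/
theorem quad_scaled_le (M : ℝ) (hM : 0 < M) (l : ℝ → ℝ) (hl0 : ∀ y ∈ Icc 0 M, 0 ≤ l y)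
    (hanti : AntitoneOn l (Icc 0 M)) (hconc : ConcaveOn ℝ (Icc 0 M) l) :
    12 * (∫ y in (0:ℝ)..M, (M - y) ^ 2 * l y) * (∫ y in (0:ℝ)..M, y * l y)
        + M ^ 4 * (∫ y in (0:ℝ)..M, l y ^ 2)
      ≤ 2 * M ^ 3 * (∫ y in (0:ℝ)..M, l y) ^ 2
        + 3 * M * (∫ y in (0:ℝ)..M, (M - y) ^ 2 * l y) * (∫ y in (0:ℝ)..M, l y) := by
  have h := quad_scaled M hM l hconc hanti hl0
  linarith

end Vale.Agent.Lib.P254.H75
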