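import Vale.Agent.Lib.P254.PWJ.Cheb
import Vale.Agent.Lib.P254.PWJ.Homothety
import Vale.Agent.Lib.P254.Sym.FibreLC

/-!
# P254, route (h76-6), Lemma 2 (E): the centroid is at least a quarter of the way to an apex

For `K ⊆ ℝ³` compact convex inside `{x 0 ≥ 0}` and `p ∈ K`: `(p 0 / 4) |K| ≤ ∫_K x 0`.
-/

open MeasureTheory Set

namespace Vale.Agent.Lib.P254

/-- First moment of the first coordinate by slices. -/
lemma qtr_moment_slice {m : ℕ} {K : Set (Fin (m+1) → ℝ)} (hK : IsCompact K) :
    ∫ x in K, x 0 = ∫ t, t * vol (sec K t) := by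
  rw [integral_slice hK (fun x => x 0) (continuous_apply 0)]
  congr 1
  ext t
  simp only [Fin.cons_zero]
  rw [setIntegral_const]
  simp [vol, Measure.real, mul_comm]

/-- Sections below height zero are empty when the set lies in the upper half space. -/
lemma qtr_sec_empty {m : ℕ} {K : Set (Fin (m+1) → ℝ)} (hpos : ∀ x ∈ K, 0 ≤ x 0) {t : ℝ}
    (ht : t < 0) : sec K t = ∅ := by
  rw [eq_empty_iff_forall_notMem]
  intro y hy
  have h := hpos _ (mem_sec.1 hy)
  rw [Fin.cons_zero] at h
  linarith

/-- The first moment integrand of the section function is integrable. -/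
lemma qtr_integrable_mul {m : ℕ} {K : Set (Fin (m+1) → ℝ)} (hK : IsCompact K) :
    Integrable (fun t => t * vol (sec K t)) := by
  obtain ⟨R, hR⟩ := sec_eq_empty_of_compact hK
  have hHi := integrable_vol_sec hK
  have hcl : Continuous (fun t : ℝ => max (-R) (min t R)) := by fun_prop
  have hb : Integrable (fun t => max (-R) (min t R) * vol (sec K t)) := by
    refine Integrable.bdd_mul (c := |R|) hHi hcl.aestronglyMeasurable ?_
    refine Filter.Eventually.of_forall (fun t => ?_)
    rw [Real.norm_eq_abs]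
    refine abs_le.mpr ⟨?_, ?_⟩
    · have h1 : -R ≤ max (-R) (min t R) := le_max_left _ _
      have h2 : -|R| ≤ -R := neg_le_neg (le_abs_self R)
      linarith
    · have h1 : max (-R) (min t R) ≤ max (-R) R := max_le_max le_rfl (min_le_right _ _)
      have h2 : max (-R) R ≤ |R| := max_le (neg_le_abs R) (le_abs_self R)
      linarith
  have heq : (fun t => t * vol (sec K t)) = fun t => max (-R) (min t R) * vol (sec K t) := by
    funext t
    by_cases ht : R < |t|
    · rw [hR t ht]
      simp [vol]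
    · push Not at ht
      have h1 := abs_le.mp ht
      rw [min_eq_left h1.2, max_eq_right h1.1]
  rw [heq]
  exact hb

/-- The two polynomial integrals. -/
lemma qtr_poly_zero (M : ℝ) : ∫ y in (0:ℝ)..M, (M / 4 - y) * (M - y) ^ 2 = 0 := by
  have hd : ∀ y ∈ uIcc (0:ℝ) M, HasDerivAt
      (fun y : ℝ => M ^ 3 / 4 * y - 3 / 4 * M ^ 2 * y ^ 2 + 3 / 4 * M * y ^ 3 - y ^ 4 / 4)
      ((M / 4 - y) * (M - y) ^ 2) y := by
    intro y _
    have h1 := (hasDerivAt_id y).const_mul (M ^ 3 / 4)
    have h2 := (hasDerivAt_pow 2 y).const_mul (3 / 4 * M ^ 2)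
    have h3 := (hasDerivAt_pow 3 y).const_mul (3 / 4 * M)
    have h4 := (hasDerivAt_pow 4 y).div_const 4
    have h := ((h1.sub h2).add h3).sub h4
    refine HasDerivAt.congr_deriv h ?_
    norm_num
    ring
  have hint : IntervalIntegrable (fun y : ℝ => (M / 4 - y) * (M - y) ^ 2) volume 0 M :=
    Continuous.intervalIntegrable (by fun_prop) _ _
  rw [intervalIntegral.integral_eq_sub_of_hasDerivAt hd hint]
  ring

lemma qtr_poly_sq (M : ℝ) : ∫ y in (0:ℝ)..M, (M - y) ^ 2 = M ^ 3 / 3 := by
  have hd : ∀ y ∈ uIcc (0:ℝ) M, HasDerivAt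
      (fun y : ℝ => M ^ 2 * y - M * y ^ 2 + y ^ 3 / 3) ((M - y) ^ 2) y := by
    intro y _
    have h1 := (hasDerivAt_id y).const_mul (M ^ 2)
    have h2 := (hasDerivAt_pow 2 y).const_mul M
    have h3 := (hasDerivAt_pow 3 y).div_const 3
    have h := (h1.sub h2).add h3
    refine HasDerivAt.congr_deriv h ?_
    norm_num
    ring
  have hint : IntervalIntegrable (fun y : ℝ => (M - y) ^ 2) volume 0 M :=
    Continuous.intervalIntegrable (by fun_prop) _ _
  rw [intervalIntegral.integral_eq_sub_of_hasDerivAt hd hint]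
  ring

theorem centroid_ge_quarter {K : Set (Fin 3 → ℝ)} (hK : IsCompact K) (hc : Convex ℝ K)
    (hpos : ∀ x ∈ K, 0 ≤ x 0) {p : Fin 3 → ℝ} (hp : p ∈ K) :
    p 0 / 4 * vol K ≤ ∫ x in K, x 0 := by
  have hM : 0 ≤ p 0 := hpos p hp
  have hHi : Integrable (fun t => vol (sec K t)) := integrable_vol_sec hK
  have hHn : ∀ t, 0 ≤ vol (sec K t) := fun t => ENNReal.toReal_nonneg
  have hH0 : ∀ t, t < 0 → vol (sec K t) = 0 := by
    intro t ht
    rw [qtr_sec_empty hpos ht]
    simp [vol]
  have hint1 : Integrable (fun t => t * vol (sec K t)) := qtr_integrable_mul hK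
  have hg : Integrable (fun t => (t - p 0 / 4) * vol (sec K t)) := by
    have h := hint1.sub (hHi.const_mul (p 0 / 4))
    have he : (fun t => (t - p 0 / 4) * vol (sec K t))
        = (fun t => t * vol (sec K t)) - fun t => p 0 / 4 * vol (sec K t) := by
      funext t
      simp only [Pi.sub_apply]
      ring
    rw [he]
    exact h
  -- the middle piece, by the Chebyshev-type inequality
  have hmid : 0 ≤ ∫ y in (0:ℝ)..p 0, (y - p 0 / 4) * vol (sec K y) := by
    rcases hM.eq_or_lt with h0 | hpos0
    · rw [← h0]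
      simp
    · have hw : AntitoneOn (fun y : ℝ => p 0 / 4 - y) (Icc 0 (p 0)) := by
        intro a _ b _ hab
        show p 0 / 4 - b ≤ p 0 / 4 - a
        linarith
      have hφ : IntervalIntegrable (fun y : ℝ => (p 0 - y) ^ 2) volume 0 (p 0) :=
        Continuous.intervalIntegrable (by fun_prop) _ _
      have hch := cheb_ratio (p 0) hM (fun y : ℝ => p 0 / 4 - y) (fun t => vol (sec K t))
        (fun y : ℝ => (p 0 - y) ^ 2) hw (hHi.intervalIntegrable) hφ
        (fun s _ t ht hst => sec_homothety hK hc hp hst ht.2)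
      rw [qtr_poly_zero, qtr_poly_sq, zero_mul] at hch
      have h3 : 0 < p 0 ^ 3 / 3 := by positivity
      have hle : ∫ y in (0:ℝ)..p 0, (p 0 / 4 - y) * vol (sec K y) ≤ 0 := by
        by_contra hcon
        push Not at hcon
        have := mul_pos hcon h3
        linarith
      have heq : ∫ y in (0:ℝ)..p 0, (y - p 0 / 4) * vol (sec K y)
          = -∫ y in (0:ℝ)..p 0, (p 0 / 4 - y) * vol (sec K y) := by
        rw [← intervalIntegral.integral_neg]
        congr 1
        funext y
        ring
      rw [heq]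
      linarith
  -- the piece above the apex height
  have htop : 0 ≤ ∫ t in Ioi (p 0), (t - p 0 / 4) * vol (sec K t) := by
    refine setIntegral_nonneg measurableSet_Ioi (fun t ht => ?_)
    have h1 : p 0 < t := ht
    have h2 : 0 ≤ t - p 0 / 4 := by linarith
    exact mul_nonneg h2 (hHn t)
  -- the piece below zero
  have hbot : ∫ t in Iic (0:ℝ), (t - p 0 / 4) * vol (sec K t) = 0 := by
    rw [integral_Iic_eq_integral_Iio]
    refine setIntegral_eq_zero_of_forall_eq_zero (fun t ht => ?_)
    rw [hH0 t ht, mul_zero]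
  have hkey : 0 ≤ ∫ t, (t - p 0 / 4) * vol (sec K t) := by
    rw [← intervalIntegral.integral_Iic_add_Ioi hg.integrableOn hg.integrableOn (b := 0), hbot,
      zero_add, ← intervalIntegral.integral_interval_add_Ioi hg.integrableOn hg.integrableOn
        (a := 0) (b := p 0)]
    linarith
  have hsplit : ∫ t, (t - p 0 / 4) * vol (sec K t)
      = (∫ t, t * vol (sec K t)) - p 0 / 4 * ∫ t, vol (sec K t) := by
    rw [← integral_const_mul, ← integral_sub hint1 (hHi.const_mul _)]
    congr 1
    funext t
    ring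
  rw [vol_slice hK, qtr_moment_slice hK]
  linarith

end Vale.Agent.Lib.P254
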