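import Vale.Agent.Lib.P254.PWJ.Cheb
import Vale.Agent.Lib.P254.PWJ.Homothety
import Vale.Agent.Lib.P254.PWJ.Chord
import Vale.Agent.Lib.P254.PWJ.ProfileA

/-!
# P254, route (h76-6), Lemma 2 (U): the cone bound for the centroid of the last coordinate

`L ⊆ ℝ³` a corner with coordinates `(y, r, x)`, `M` its extent in `y`, and
`l y = |sec (sec L y) 0|` the length of the chord `{x : (y, 0, x) ∈ L}`.  Then
`2 M^3 ∫_L x ≤ 3 (∫_0^M (M - y)^2 l y dy) |L|`.
-/

open MeasureTheory Set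

namespace Vale.Agent.Lib.P254

/-- The product of two nonnegative antitone functions is antitone. -/
theorem upper_antitoneOn_mul {f g : ℝ → ℝ} {S : Set ℝ} (hf : AntitoneOn f S)
    (hg : AntitoneOn g S) (hf0 : ∀ x ∈ S, 0 ≤ f x) (hg0 : ∀ x ∈ S, 0 ≤ g x) :
    AntitoneOn (fun x => f x * g x) S := by
  intro s hs t ht hst
  exact mul_le_mul (hf hs ht hst) (hg hs ht hst) (hg0 t ht) (hf0 s hs)

/-- An antitone function on `[0, M]` is interval integrable on it. -/
theorem upper_intervalIntegrable {f : ℝ → ℝ} {M : ℝ} (hM : 0 ≤ M)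
    (hf : AntitoneOn f (Icc 0 M)) : IntervalIntegrable f volume 0 M := by
  apply AntitoneOn.intervalIntegrable
  rw [Set.uIcc_of_le hM]
  exact hf

/-- The integral of `(M - y)^2` over `[0, M]`. -/
theorem upper_integral_sq (M : ℝ) : ∫ y in (0:ℝ)..M, (M - y) ^ 2 = M ^ 3 / 3 := by
  have h := intervalIntegral.integral_comp_sub_left (fun x : ℝ => x ^ 2) (a := (0:ℝ)) (b := M) M
  rw [h, integral_pow]
  norm_num

theorem moment_le_cone {L : Set (Fin 3 → ℝ)} (hL : Corner L) {M : ℝ} (hM : 0 < M)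
    (hMmem : (![M, 0, 0] : Fin 3 → ℝ) ∈ L) (hMmax : ∀ x ∈ L, x 0 ≤ M) :
    2 * M ^ 3 * (∫ x in L, x 2)
      ≤ 3 * (∫ y in (0:ℝ)..M, (M - y) ^ 2 * vol (sec (sec L y) 0)) * vol L := by
  have hM0 : (0:ℝ) ≤ M := hM.le
  have hM3 : (0:ℝ) < M ^ 3 := by positivity
  -- the three profiles
  have hvol : vol L = ∫ y in (0:ℝ)..M, vol (sec L y) := vol_eq_profile hL hM0 hMmax
  have hmom : ∫ x in L, x 2 = ∫ y in (0:ℝ)..M, ∫ w in sec L y, w 1 :=
    moment_succ_eq_profile hL hM0 hMmax (1 : Fin 2)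
  have hH0 : ∀ y, 0 ≤ vol (sec L y) := fun y => ENNReal.toReal_nonneg
  have hl0 : ∀ y, 0 ≤ vol (sec (sec L y) 0) := fun y => ENNReal.toReal_nonneg
  -- monotonicity
  have hH_anti : AntitoneOn (fun y => vol (sec L y)) (Icc 0 M) := profile_antitone hL M
  have hl_anti : AntitoneOn (fun y => vol (sec (sec L y) 0)) (Icc 0 M) := by
    intro s hs t _ hst
    have hsub : sec L t ⊆ sec L s := corner_sec_anti hL hs.1 hst
    have hsub2 : sec (sec L t) 0 ⊆ sec (sec L s) 0 := fun u hu => hsub hu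
    have hfin : volume (sec (sec L s) 0) ≠ ⊤ :=
      (corner_sec (corner_sec hL s) 0).1.measure_lt_top.ne
    exact ENNReal.toReal_mono hfin (measure_mono hsub2)
  have hφ_anti : AntitoneOn (fun y : ℝ => (M - y) ^ 2) (Icc 0 M) := by
    intro s _ t ht hst
    exact pow_le_pow_left₀ (by linarith [ht.2]) (by linarith) 2
  have hφ0 : ∀ y : ℝ, 0 ≤ (M - y) ^ 2 := fun y => sq_nonneg _
  -- integrability
  have hH_int : IntervalIntegrable (fun y => vol (sec L y)) volume 0 M :=
    upper_intervalIntegrable hM0 hH_anti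
  have hφ_int : IntervalIntegrable (fun y : ℝ => (M - y) ^ 2) volume 0 M :=
    upper_intervalIntegrable hM0 hφ_anti
  have hlH_int : IntervalIntegrable (fun y => vol (sec (sec L y) 0) * vol (sec L y)) volume 0 M :=
    upper_intervalIntegrable hM0
      (upper_antitoneOn_mul hl_anti hH_anti (fun y _ => hl0 y) (fun y _ => hH0 y))
  have hφl_int : IntervalIntegrable (fun y => (M - y) ^ 2 * vol (sec (sec L y) 0)) volume 0 M :=
    upper_intervalIntegrable hM0
      (upper_antitoneOn_mul hφ_anti hl_anti (fun y _ => hφ0 y) (fun y _ => hl0 y))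
  have hHx_int : IntervalIntegrable (fun y => ∫ w in sec L y, w 1) volume 0 M :=
    secMoment_intervalIntegrable hL (1 : Fin 2) 0 M
  -- names for the integrals
  obtain ⟨IH, hIH⟩ : ∃ IH : ℝ, IH = ∫ y in (0:ℝ)..M, vol (sec L y) := ⟨_, rfl⟩
  obtain ⟨IlH, hIlH⟩ : ∃ IlH : ℝ,
      IlH = ∫ y in (0:ℝ)..M, vol (sec (sec L y) 0) * vol (sec L y) := ⟨_, rfl⟩
  obtain ⟨C, hC⟩ : ∃ C : ℝ,
      C = ∫ y in (0:ℝ)..M, (M - y) ^ 2 * vol (sec (sec L y) 0) := ⟨_, rfl⟩
  obtain ⟨IHx, hIHx⟩ : ∃ IHx : ℝ, IHx = ∫ y in (0:ℝ)..M, ∫ w in sec L y, w 1 := ⟨_, rfl⟩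
  obtain ⟨tt, htt⟩ : ∃ tt : ℝ, tt = 3 * C / (2 * M ^ 3) := ⟨_, rfl⟩
  -- the Chebyshev-type inequality for the weight `l / 2 - tt`
  have hw_anti : AntitoneOn (fun y => vol (sec (sec L y) 0) / 2 - tt) (Icc 0 M) := by
    intro s hs t ht hst
    have := hl_anti hs ht hst
    show vol (sec (sec L t) 0) / 2 - tt ≤ vol (sec (sec L s) 0) / 2 - tt
    linarith
  have hratio : ∀ s ∈ Icc (0:ℝ) M, ∀ t ∈ Icc (0:ℝ) M, s ≤ t →
      vol (sec L s) * (M - t) ^ 2 ≤ vol (sec L t) * (M - s) ^ 2 := by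
    intro s _ t ht hst
    have h0 : (![M, 0, 0] : Fin 3 → ℝ) 0 = M := rfl
    have h := sec_homothety hL.1 hL.2.1 hMmem hst (by rw [h0]; exact ht.2)
    rw [h0] at h
    exact h
  have hcheb := cheb_ratio M hM0 (fun y => vol (sec (sec L y) 0) / 2 - tt)
    (fun y => vol (sec L y)) (fun y => (M - y) ^ 2) hw_anti hH_int hφ_int hratio
  have e1 : ∫ y in (0:ℝ)..M, (vol (sec (sec L y) 0) / 2 - tt) * vol (sec L y)
      = 1 / 2 * IlH - tt * IH := by
    have e : ∀ y, (vol (sec (sec L y) 0) / 2 - tt) * vol (sec L y)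
        = 1 / 2 * (vol (sec (sec L y) 0) * vol (sec L y)) - tt * vol (sec L y) :=
      fun y => by ring
    rw [intervalIntegral.integral_congr (fun y _ => e y),
      intervalIntegral.integral_sub (hlH_int.const_mul _) (hH_int.const_mul _),
      intervalIntegral.integral_const_mul, intervalIntegral.integral_const_mul, ← hIlH, ← hIH]
  have e2 : ∫ y in (0:ℝ)..M, (vol (sec (sec L y) 0) / 2 - tt) * (M - y) ^ 2
      = 1 / 2 * C - tt * (M ^ 3 / 3) := by
    have e : ∀ y, (vol (sec (sec L y) 0) / 2 - tt) * (M - y) ^ 2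
        = 1 / 2 * ((M - y) ^ 2 * vol (sec (sec L y) 0)) - tt * (M - y) ^ 2 :=
      fun y => by ring
    rw [intervalIntegral.integral_congr (fun y _ => e y),
      intervalIntegral.integral_sub (hφl_int.const_mul _) (hφ_int.const_mul _),
      intervalIntegral.integral_const_mul, intervalIntegral.integral_const_mul, ← hC,
      upper_integral_sq]
  rw [e1, e2, upper_integral_sq, ← hIH] at hcheb
  have hzero : 1 / 2 * C - tt * (M ^ 3 / 3) = 0 := by
    rw [htt]
    field_simp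
    ring
  rw [hzero, zero_mul] at hcheb
  have h1 : 1 / 2 * IlH - tt * IH ≤ 0 := by
    by_contra hcon
    have hpos : 0 < 1 / 2 * IlH - tt * IH := not_le.mp hcon
    have : 0 < (1 / 2 * IlH - tt * IH) * (M ^ 3 / 3) := mul_pos hpos (by positivity)
    linarith
  -- the chordwise bound
  have h2 : IHx ≤ 1 / 2 * IlH := by
    have e : ∫ y in (0:ℝ)..M, vol (sec (sec L y) 0) / 2 * vol (sec L y) = 1 / 2 * IlH := by
      have e' : ∀ y, vol (sec (sec L y) 0) / 2 * vol (sec L y)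
          = 1 / 2 * (vol (sec (sec L y) 0) * vol (sec L y)) := fun y => by ring
      rw [intervalIntegral.integral_congr (fun y _ => e' y),
        intervalIntegral.integral_const_mul, ← hIlH]
    rw [hIHx, ← e]
    apply intervalIntegral.integral_mono_on hM0 hHx_int
    · have e' : (fun y => vol (sec (sec L y) 0) / 2 * vol (sec L y))
          = fun y => 1 / 2 * (vol (sec (sec L y) 0) * vol (sec L y)) := by
        funext y
        ring
      rw [e']
      exact hlH_int.const_mul _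
    · intro y _
      exact corner_two_moment_le (corner_sec hL y)
  -- conclusion
  rw [hmom, hvol, ← hIHx, ← hIH, ← hC]
  have h3 : IHx ≤ tt * IH := by linarith
  have h4 : 2 * M ^ 3 * tt = 3 * C := by
    rw [htt]
    field_simp
  calc 2 * M ^ 3 * IHx ≤ 2 * M ^ 3 * (tt * IH) :=
        mul_le_mul_of_nonneg_left h3 (by positivity)
    _ = 2 * M ^ 3 * tt * IH := by ring
    _ = 3 * C * IH := by rw [h4]

end Vale.Agent.Lib.P254
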