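import Vale.Agent.Lib.P254.PWJ.Quarter
import Vale.Agent.Lib.P254.PWJ.Upper
import Vale.Agent.Lib.P254.PWJ.Perm

/-!
# P254, route (h76-6): Lemma 2 in the coordinates of the tail argument
(coordinate `0` is the tail direction, the bottom facet is `sec L 0`)
-/

open MeasureTheory Set

namespace Vale.Agent.Lib.P254

/-- The swap of the coordinates `0` and `1` is an involution on points. -/
private theorem comp_swap01_comp_swap01 (p : Fin 3 → ℝ) :
    (p ∘ (Equiv.swap (0 : Fin 3) 1)) ∘ (Equiv.swap (0 : Fin 3) 1) = p := by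
  funext i
  simp [Function.comp]

private theorem mem_permSet_swap01 {L : Set (Fin 3 → ℝ)} {p : Fin 3 → ℝ} (hp : p ∈ L) :
    p ∘ (Equiv.swap (0 : Fin 3) 1) ∈ permSet (Equiv.swap (0 : Fin 3) 1) L := by
  show (p ∘ (Equiv.swap (0 : Fin 3) 1)) ∘ (Equiv.swap (0 : Fin 3) 1) ∈ L
  rw [comp_swap01_comp_swap01]
  exact hp

private theorem setIntegral_permSet_swap01_zero (L : Set (Fin 3 → ℝ)) :
    ∫ x in permSet (Equiv.swap (0 : Fin 3) 1) L, x 0 = ∫ x in L, x 1 := by
  have h1 := setIntegral_permSet (Equiv.swap (0 : Fin 3) 1) L (fun x => x 1)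
  rw [← h1]
  refine integral_congr_ae (Filter.Eventually.of_forall fun x => ?_)
  simp [Function.comp]

private theorem setIntegral_permSet_swap01_two (L : Set (Fin 3 → ℝ)) :
    ∫ x in permSet (Equiv.swap (0 : Fin 3) 1) L, x 2 = ∫ x in L, x 2 := by
  have h1 := setIntegral_permSet (Equiv.swap (0 : Fin 3) 1) L (fun x => x 2)
  rw [← h1]
  refine integral_congr_ae (Filter.Eventually.of_forall fun x => ?_)
  have h2 : (Equiv.swap (0 : Fin 3) 1) 2 = 2 := by decide
  simp [Function.comp, h2]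

private theorem cons_comp_swap01 (M : ℝ) :
    (![M, 0, 0] : Fin 3 → ℝ) ∘ (Equiv.swap (0 : Fin 3) 1) = ![0, M, 0] := by
  funext i
  fin_cases i
  · simp [Function.comp]
  · simp [Function.comp]
  · have h2 : (Equiv.swap (0 : Fin 3) 1) 2 = 2 := by decide
    simp [Function.comp, h2]

theorem centroid_ge_quarter_one {L : Set (Fin 3 → ℝ)} (hL : Corner L) {p : Fin 3 → ℝ}
    (hp : p ∈ L) : p 1 / 4 * vol L ≤ ∫ x in L, x 1 := by
  have hL' : Corner (permSet (Equiv.swap (0 : Fin 3) 1) L) := corner_permSet hL _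
  have h := centroid_ge_quarter hL'.1 hL'.2.1 (fun x hx => hL'.2.2.1 x hx 0)
    (mem_permSet_swap01 hp)
  rw [vol_permSet, setIntegral_permSet_swap01_zero] at h
  have h2 : (p ∘ (Equiv.swap (0 : Fin 3) 1)) 0 = p 1 := by simp [Function.comp]
  rw [h2] at h
  exact h

theorem moment_le_cone_one {L : Set (Fin 3 → ℝ)} (hL : Corner L) {M : ℝ} (hM : 0 < M)
    (hMmem : (![0, M, 0] : Fin 3 → ℝ) ∈ L) (hMmax : ∀ x ∈ L, x 1 ≤ M) :
    2 * M ^ 3 * (∫ x in L, x 2)
      ≤ 3 * (∫ y in (0:ℝ)..M, (M - y) ^ 2 * vol (sec (sec L 0) y)) * vol L := by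
  have hL' : Corner (permSet (Equiv.swap (0 : Fin 3) 1) L) := corner_permSet hL _
  have hmem' : (![M, 0, 0] : Fin 3 → ℝ) ∈ permSet (Equiv.swap (0 : Fin 3) 1) L := by
    show (![M, 0, 0] : Fin 3 → ℝ) ∘ (Equiv.swap (0 : Fin 3) 1) ∈ L
    rw [cons_comp_swap01]
    exact hMmem
  have hmax' : ∀ x ∈ permSet (Equiv.swap (0 : Fin 3) 1) L, x 0 ≤ M := by
    intro x hx
    have h := hMmax _ hx
    simpa [Function.comp] using h
  have h := moment_le_cone hL' hM hmem' hmax'
  rw [vol_permSet, setIntegral_permSet_swap01_two] at h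
  simp only [sec_sec_swap01] at h
  exact h

end Vale.Agent.Lib.P254
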